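import Vale.Agent.Lib.P170.Ops

namespace Vale.Agent.Lib.P170

open Finset

set_option linter.unusedSectionVars false
set_option linter.unusedVariables false

section abstractOps

variable {X : Type} [DecidableEq X] {Ω Ω' : Type} [Fintype Ω] [Fintype Ω'] [Nonempty Ω] [Nonempty Ω']
variable (A : Ω → Finset X) (B : Ω' → Finset X)

lemma T_pow_mono (a : ℕ) : MonoFn (((Avg A) ^ a) g0) :=
  (MonoPres.pow (Avg_monoPres A) a) _ g0_mono

lemma T_pow_unit (a : ℕ) : UnitFn (((Avg A) ^ a) (g0 : Fn X)) := by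
  induction a with
  | zero => simpa using g0_unit
  | succ a ih =>
    rw [pow_succ']
    exact Avg_unit A ih

lemma T_pow_anti {a a' : ℕ} (h : a ≤ a') : ((Avg A) ^ a') (g0 : Fn X) ≤ ((Avg A) ^ a) g0 := by
  induction a', h using Nat.le_induction with
  | base => exact le_rfl
  | succ a' _ ih =>
    refine le_trans ?_ ih
    rw [pow_succ']
    exact Avg_le_self A (T_pow_mono A a')

/-- The lower mixture operator. -/
noncomputable def Lop (p : ℝ) : Module.End ℝ (Fn X) :=
  (1 - 2 * p) • Avg A + p • Avg B + p • 1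

/-- The upper mixture operator. -/
noncomputable def Uop (p : ℝ) : Module.End ℝ (Fn X) :=
  (1 - 2 * p) • Avg A + (2 * p) • 1

/-- The auxiliary binomial mixture operator. -/
noncomputable def Yop (p : ℝ) : Module.End ℝ (Fn X) :=
  (1 - p) • 1 + p • Avg B

lemma Lop_orderPres {p : ℝ} (h0 : 0 ≤ p) (h1 : p ≤ 1 / 2) : OrderPres (Lop A B p) :=
  ((Avg_orderPres A).smul (by linarith)).add ((Avg_orderPres B).smul h0) |>.add
    (OrderPres.one.smul h0)

lemma Uop_orderPres {p : ℝ} (h0 : 0 ≤ p) (h1 : p ≤ 1 / 2) : OrderPres (Uop A p) :=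
  ((Avg_orderPres A).smul (by linarith)).add (OrderPres.one.smul (by linarith))

lemma Yop_orderPres {p : ℝ} (h0 : 0 ≤ p) (h1 : p ≤ 1 / 2) : OrderPres (Yop B p) :=
  (OrderPres.one.smul (by linarith)).add ((Avg_orderPres B).smul h0)

lemma Yop_monoPres {p : ℝ} (h0 : 0 ≤ p) (h1 : p ≤ 1 / 2) : MonoPres (Yop B p) :=
  (MonoPres.one.smul (by linarith)).add ((Avg_monoPres B).smul h0)

lemma Yop_comm (p : ℝ) : Commute (Yop B p) (Avg A) := by
  unfold Yop
  apply Commute.add_left
  · exact (Commute.one_left _).smul_left _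
  · exact ((Avg_comm B A)).smul_left _

/-- One step of the comparison of operators. -/
lemma Lop_ge {p : ℝ} (h0 : 0 ≤ p) {g : Fn X} (hg : MonoFn g) :
    Avg A (Yop B p g) ≤ Lop A B p g := by
  intro S
  have hgB : MonoFn (Avg B g) := Avg_monoPres B g hg
  have h1 := Avg_le_self A hg S
  have h2 := Avg_le_self A hgB S
  have e1 : Avg A (Yop B p g) S = (1 - p) * Avg A g S + p * Avg A (Avg B g) S := by
    have : Yop B p g = (1 - p) • g + p • Avg B g := by
      simp [Yop]
    rw [this, map_add, map_smul, map_smul]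
    simp
  have e2 : Lop A B p g S = (1 - 2 * p) * Avg A g S + p * Avg B g S + p * g S := by
    simp [Lop]
  rw [e1, e2]
  nlinarith

lemma Lop_pow_ge {p : ℝ} (h0 : 0 ≤ p) (h1 : p ≤ 1 / 2) (m : ℕ) :
    ((Avg A) ^ m) (((Yop B p) ^ m) (g0 : Fn X)) ≤ ((Lop A B p) ^ m) g0 := by
  induction m with
  | zero => simp
  | succ m ih =>
    have hmono : MonoFn (((Avg A) ^ m) (((Yop B p) ^ m) (g0 : Fn X))) :=
      (MonoPres.pow (Avg_monoPres A) m) _ ((MonoPres.pow (Yop_monoPres B h0 h1) m) _ g0_mono)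
    have step := Lop_ge A B h0 hmono
    have step2 := Lop_orderPres A B h0 h1 _ _ ih
    rw [pow_succ' (Lop A B p)]
    refine le_trans ?_ step2
    refine le_trans (le_of_eq ?_) step
    have hc : Commute (Yop B p) ((Avg A) ^ m) := (Yop_comm A B p).pow_right m
    have : (Avg A) ^ (m + 1) * (Yop B p) ^ (m + 1)
        = Avg A * (Yop B p * ((Avg A) ^ m * (Yop B p) ^ m)) := by
      rw [pow_succ' (Avg A), pow_succ' (Yop B p)]
      rw [mul_assoc, ← mul_assoc ((Avg A) ^ m), ← hc.eq]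
      simp only [mul_assoc]
    exact congrArg (fun f : Module.End ℝ (Fn X) => f g0) this

/-- The binomial tail estimate, in operator form. -/
lemma Yop_pow_ge {p : ℝ} (h0 : 0 ≤ p) (h1 : p ≤ 1 / 2) (J r c : ℕ) :
    (fun S => (1 - ((c : ℝ) + r * p) / (J + 1)) * ((Avg B) ^ J) (g0 : Fn X) S) ≤
      ((Yop B p) ^ r) (((Avg B) ^ c) (g0 : Fn X)) := by
  induction r generalizing c with
  | zero =>
    intro S
    simp only [Nat.cast_zero, zero_mul, add_zero, pow_zero, Module.End.one_apply]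
    have hu := T_pow_unit B J S
    have hc := T_pow_unit B c S
    by_cases hcJ : c ≤ J
    · have h2 := T_pow_anti B hcJ S
      have h3 : (0 : ℝ) ≤ (c : ℝ) / (J + 1) := by positivity
      nlinarith [hu.1, hu.2]
    · have h4 : (J : ℝ) + 1 ≤ c := by
        have : J + 1 ≤ c := by omega
        exact_mod_cast this
      have h5 : (1 : ℝ) ≤ (c : ℝ) / (J + 1) := by
        rw [one_le_div (by positivity)]
        exact h4
      nlinarith [hu.1, hu.2, hc.1]
  | succ r ih =>
    intro S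
    have e : ((Yop B p) ^ (r + 1)) (((Avg B) ^ c) (g0 : Fn X))
        = (1 - p) • ((Yop B p) ^ r) (((Avg B) ^ c) g0)
          + p • ((Yop B p) ^ r) (((Avg B) ^ (c + 1)) g0) := by
      rw [pow_succ]
      show ((Yop B p) ^ r) ((Yop B p) (((Avg B) ^ c) g0)) = _
      have e2 : (Yop B p) (((Avg B) ^ c) (g0 : Fn X))
          = (1 - p) • (((Avg B) ^ c) g0) + p • (((Avg B) ^ (c + 1)) g0) := by
        simp [Yop, pow_succ']
      rw [e2, map_add, map_smul, map_smul]
    rw [e]
    have i1 := ih c S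
    have i2 := ih (c + 1) S
    simp only [Pi.add_apply, Pi.smul_apply, smul_eq_mul]
    simp only at i1 i2
    have hJ : (0 : ℝ) < (J : ℝ) + 1 := by positivity
    have key : (1 - (((c : ℝ) + ((r + 1 : ℕ) : ℝ) * p) / (J + 1))) =
        (1 - p) * (1 - ((c : ℝ) + r * p) / (J + 1))
          + p * (1 - (((c + 1 : ℕ) : ℝ) + r * p) / (J + 1)) := by
      push_cast
      field_simp
      ring
    rw [key]
    have hp1 : 0 ≤ 1 - p := by linarith
    have a1 := mul_le_mul_of_nonneg_left i1 hp1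
    have a2 := mul_le_mul_of_nonneg_left i2 h0
    nlinarith

/-- The lower comparison. -/
theorem lower_abstract {p : ℝ} (h0 : 0 ≤ p) (h1 : p ≤ 1 / 2) (J m : ℕ) (S : Finset X) :
    (1 - ((m : ℝ) * p) / (J + 1)) * (((Avg A) ^ m) (((Avg B) ^ J) (g0 : Fn X)) S)
      ≤ ((Lop A B p) ^ m) g0 S := by
  refine le_trans ?_ (Lop_pow_ge A B h0 h1 m S)
  have h2 := Yop_pow_ge B h0 h1 J m 0
  simp only [pow_zero, Module.End.one_apply, Nat.cast_zero, zero_add] at h2
  have h3 := (OrderPres.pow (Avg_orderPres A) m) _ _ h2 S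
  refine le_trans (le_of_eq ?_) h3
  have : (fun S => (1 - ((m : ℝ) * p) / (J + 1)) * ((Avg B) ^ J) (g0 : Fn X) S)
      = (1 - ((m : ℝ) * p) / (J + 1)) • ((Avg B) ^ J) (g0 : Fn X) := rfl
  rw [this, map_smul]
  rfl

/-- Iterating on a constant gives the constant. -/
lemma Avg_pow_const (a : ℕ) (c : ℝ) :
    ((Avg A) ^ a) (fun _ : Finset X => c) = fun _ => c := by
  induction a with
  | zero => rfl
  | succ a ih =>
    rw [pow_succ]
    show ((Avg A) ^ a) (Avg A (fun _ => c)) = _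
    rw [Avg_const, ih]

/-- The upper comparison, general form. -/
lemma Uop_pow_le {p : ℝ} (h0 : 0 ≤ p) (h1 : p ≤ 1 / 2) (m J r a : ℕ) (hle : a + r ≤ m)
    (S : Finset X) :
    ((Uop A p) ^ r) (((Avg A) ^ a) (g0 : Fn X)) S ≤
      ((Avg A) ^ (m - J)) g0 S + ((m : ℝ) - a - r + r * (2 * p)) / (J + 1) := by
  have hJ : (0 : ℝ) < (J : ℝ) + 1 := by positivity
  induction r generalizing a with
  | zero =>
    simp only [pow_zero, Module.End.one_apply, Nat.cast_zero, zero_mul, sub_zero, add_zero]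
    have hu := T_pow_unit A a S
    have hu' := T_pow_unit A (m - J) S
    have hma : (0 : ℝ) ≤ (m : ℝ) - a := by
      have : (a : ℝ) ≤ m := by exact_mod_cast (by omega : a ≤ m)
      linarith
    by_cases hcase : m - J ≤ a
    · have h2 := T_pow_anti A hcase S
      have h3 : (0 : ℝ) ≤ ((m : ℝ) - a) / (J + 1) := div_nonneg hma hJ.le
      linarith
    · have h4 : (J : ℝ) + 1 ≤ (m : ℝ) - a := by
        have : a + (J + 1) ≤ m := by omega
        have : ((a + (J + 1) : ℕ) : ℝ) ≤ m := by exact_mod_cast this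
        push_cast at this
        linarith
      have h5 : (1 : ℝ) ≤ ((m : ℝ) - a) / (J + 1) := by
        rw [one_le_div hJ]
        exact h4
      linarith [hu.2, hu'.1]
  | succ r ih =>
    have e : ((Uop A p) ^ (r + 1)) (((Avg A) ^ a) (g0 : Fn X))
        = (1 - 2 * p) • ((Uop A p) ^ r) (((Avg A) ^ (a + 1)) g0)
          + (2 * p) • ((Uop A p) ^ r) (((Avg A) ^ a) g0) := by
      rw [pow_succ]
      show ((Uop A p) ^ r) ((Uop A p) (((Avg A) ^ a) g0)) = _
      have e2 : (Uop A p) (((Avg A) ^ a) (g0 : Fn X))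
          = (1 - 2 * p) • (((Avg A) ^ (a + 1)) g0) + (2 * p) • (((Avg A) ^ a) g0) := by
        simp [Uop, pow_succ']
      rw [e2, map_add, map_smul, map_smul]
    rw [e]
    have i1 := ih (a + 1) (by omega)
    have i2 := ih a (by omega)
    simp only [Pi.add_apply, Pi.smul_apply, smul_eq_mul]
    have key : ((m : ℝ) - a - ((r + 1 : ℕ) : ℝ) + ((r + 1 : ℕ) : ℝ) * (2 * p)) / (J + 1)
        = (1 - 2 * p) * (((m : ℝ) - ((a + 1 : ℕ) : ℝ) - r + r * (2 * p)) / (J + 1))
          + (2 * p) * (((m : ℝ) - a - r + r * (2 * p)) / (J + 1)) := by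
      push_cast
      field_simp
      ring
    rw [key]
    have hp1 : 0 ≤ 1 - 2 * p := by linarith
    have hp2 : 0 ≤ 2 * p := by linarith
    have a1 := mul_le_mul_of_nonneg_left i1 hp1
    have a2 := mul_le_mul_of_nonneg_left i2 hp2
    nlinarith

/-- The upper comparison. -/
theorem upper_abstract {p : ℝ} (h0 : 0 ≤ p) (h1 : p ≤ 1 / 2) (m J : ℕ) (S : Finset X) :
    ((Uop A p) ^ m) (g0 : Fn X) S ≤
      ((Avg A) ^ (m - J)) g0 S + ((m : ℝ) * (2 * p)) / (J + 1) := by
  have h := Uop_pow_le A h0 h1 m J m 0 (by omega) S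
  simp only [pow_zero, Module.End.one_apply, Nat.cast_zero, sub_zero, sub_self, zero_add] at h
  exact h

/-- The chain estimate. -/
theorem chain {δ : ℝ} {E : ℕ}
    (H : ∀ S : Finset X, ((Avg A) ^ E) (g0 : Fn X) S - δ ≤ Avg B g0 S) (m J : ℕ) (S : Finset X) :
    ((Avg A) ^ (m + J * E)) (g0 : Fn X) S - J * δ ≤ ((Avg A) ^ m) (((Avg B) ^ J) g0) S := by
  induction J generalizing m with
  | zero => simp
  | succ J ih =>
    have h1 : (fun S => ((Avg A) ^ E) (g0 : Fn X) S - δ) ≤ Avg B g0 := fun S => H S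
    have h3 := (OrderPres.pow (Avg_orderPres A) m) _ _
      ((OrderPres.pow (Avg_orderPres B) J) _ _ h1) S
    have e1 : (fun S => ((Avg A) ^ E) (g0 : Fn X) S - δ)
        = ((Avg A) ^ E) (g0 : Fn X) - (fun _ => δ) := rfl
    rw [e1, map_sub, map_sub, Avg_pow_const B J δ, Avg_pow_const A m δ] at h3
    simp only [Pi.sub_apply] at h3
    have hcomm : ((Avg A) ^ m) (((Avg B) ^ J) (((Avg A) ^ E) (g0 : Fn X)))
        = ((Avg A) ^ (m + E)) (((Avg B) ^ J) g0) := by
      have hc : Commute ((Avg B) ^ J) ((Avg A) ^ E) := ((Avg_comm B A).pow_pow J E)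
      have : (Avg A) ^ m * ((Avg B) ^ J * (Avg A) ^ E) = (Avg A) ^ (m + E) * (Avg B) ^ J := by
        rw [hc.eq, pow_add, mul_assoc]
      exact congrArg (fun f : Module.End ℝ (Fn X) => f g0) this
    rw [hcomm] at h3
    have i := ih (m + E)
    have e2 : ((Avg B) ^ (J + 1)) (g0 : Fn X) = ((Avg B) ^ J) (Avg B g0) := by
      rw [pow_succ]; rfl
    rw [e2]
    have e3 : m + (J + 1) * E = m + E + J * E := by ring
    rw [e3]
    push_cast
    nlinarith

end abstractOps

end Vale.Agent.Lib.P170
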