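import Vale.Agent.Lib.P170.Defs
import Vale.Agent.Lib.P170.Abstract

namespace Vale.Agent.Lib.P170

open Finset

set_option linter.unusedSectionVars false
set_option linter.unusedVariables false

instance (k n : ℕ) : Finite (Clause k n) := by
  unfold Clause
  infer_instance

noncomputable instance (k n : ℕ) : Fintype (Clause k n) := Fintype.ofFinite _

lemma Clause.ext' {k n : ℕ} {C D : Clause k n} (h : C.1 = D.1) : C = D := Subtype.ext h

/-- Lifting a literal to one more variable, the new variable being `0`. -/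
def liftLit (n : ℕ) : (Fin n × Bool) ↪ (Fin (n + 1) × Bool) where
  toFun l := (l.1.succ, l.2)
  inj' := by
    intro a b h
    simp only [Prod.mk.injEq, Fin.succ_inj] at h
    exact Prod.ext h.1 h.2

@[simp] lemma liftLit_apply (n : ℕ) (l : Fin n × Bool) : liftLit n l = (l.1.succ, l.2) := rfl

lemma zero_not_mem_map {n : ℕ} (L : Finset (Fin n × Bool)) (b : Bool) :
    ((0 : Fin (n + 1)), b) ∉ L.map (liftLit n) := by
  simp [Fin.succ_ne_zero]

/-- A clause without the new variable. -/
def up {k n : ℕ} (C : Clause k n) : Clause k (n + 1) :=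
  ⟨C.1.map (liftLit n), by
    refine ⟨by rw [Finset.card_map]; exact C.2.1, ?_⟩
    intro x hx y hy hxy
    simp only [Finset.coe_map, Set.mem_image, Finset.mem_coe] at hx hy
    obtain ⟨a, ha, rfl⟩ := hx
    obtain ⟨b, hb, rfl⟩ := hy
    simp only [liftLit_apply, Fin.succ_inj] at hxy
    rw [C.2.2 ha hb hxy]⟩

/-- A clause with the new variable, with sign `s`. -/
def upIns {k n : ℕ} (s : Bool) (C : Clause k n) : Clause (k + 1) (n + 1) :=
  ⟨insert ((0 : Fin (n + 1)), s) (C.1.map (liftLit n)), by
    refine ⟨?_, ?_⟩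
    · rw [Finset.card_insert_of_notMem (zero_not_mem_map _ _), Finset.card_map, C.2.1]
    · intro x hx y hy hxy
      simp only [Finset.coe_insert, Finset.coe_map, Set.mem_insert_iff, Set.mem_image,
        Finset.mem_coe] at hx hy
      rcases hx with rfl | ⟨a, ha, rfl⟩ <;> rcases hy with rfl | ⟨b, hb, rfl⟩
      · rfl
      · simp at hxy
        exact absurd hxy.symm (Fin.succ_ne_zero _)
      · simp [Fin.succ_ne_zero] at hxy
      · simp only [liftLit_apply, Fin.succ_inj] at hxy
        rw [C.2.2 ha hb hxy]⟩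

/-- The three kinds of clauses on one more variable. -/
def decompFun (k n : ℕ) : Clause (k + 1) n ⊕ (Clause k n ⊕ Clause k n) → Clause (k + 1) (n + 1)
  | Sum.inl C => up C
  | Sum.inr (Sum.inl C) => upIns true C
  | Sum.inr (Sum.inr C) => upIns false C

lemma up_val {k n : ℕ} (C : Clause k n) : (up C).1 = C.1.map (liftLit n) := rfl

lemma upIns_val {k n : ℕ} (s : Bool) (C : Clause k n) :
    (upIns s C).1 = insert ((0 : Fin (n + 1)), s) (C.1.map (liftLit n)) := rfl

lemma up_inj {k n : ℕ} {C D : Clause k n} (h : up C = up D) : C = D := by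
  apply Clause.ext'
  have := congrArg Subtype.val h
  rw [up_val, up_val] at this
  exact Finset.map_injective _ this

lemma upIns_inj {k n : ℕ} {s t : Bool} {C D : Clause k n} (h : upIns s C = upIns t D) :
    s = t ∧ C = D := by
  have h1 := congrArg Subtype.val h
  rw [upIns_val, upIns_val] at h1
  have hst : s = t := by
    have hm : ((0 : Fin (n + 1)), s) ∈ insert ((0 : Fin (n + 1)), t) (D.1.map (liftLit n)) := by
      rw [← h1]; exact Finset.mem_insert_self _ _
    rw [Finset.mem_insert] at hm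
    rcases hm with hm | hm
    · simpa using hm
    · exact absurd hm (zero_not_mem_map _ _)
  subst hst
  refine ⟨rfl, Clause.ext' ?_⟩
  have h2 : C.1.map (liftLit n) = D.1.map (liftLit n) := by
    have e1 := Finset.erase_insert (zero_not_mem_map C.1 s)
    have e2 := Finset.erase_insert (zero_not_mem_map D.1 s)
    rw [← e1, ← e2, h1]
  exact Finset.map_injective _ h2

lemma up_ne_upIns {k n : ℕ} (s : Bool) (C : Clause (k + 1) n) (D : Clause k n) :
    up C ≠ upIns s D := by
  intro h
  have h1 := congrArg Subtype.val h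
  rw [up_val, upIns_val] at h1
  have hm : ((0 : Fin (n + 1)), s) ∈ C.1.map (liftLit n) := by
    rw [h1]; exact Finset.mem_insert_self _ _
  exact zero_not_mem_map _ _ hm

lemma decomp_inj (k n : ℕ) : Function.Injective (decompFun k n) := by
  rintro (C | C | C) (D | D | D) h <;> simp only [decompFun] at h
  · rw [up_inj h]
  · exact absurd h (up_ne_upIns _ _ _)
  · exact absurd h (up_ne_upIns _ _ _)
  · exact absurd h.symm (up_ne_upIns _ _ _)
  · rw [(upIns_inj h).2]
  · exact absurd (upIns_inj h).1 (by decide)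
  · exact absurd h.symm (up_ne_upIns _ _ _)
  · exact absurd (upIns_inj h).1 (by decide)
  · rw [(upIns_inj h).2]

/-- Literals of a set that avoid the new variable, seen on the old variables. -/
noncomputable def downLits {n : ℕ} (L : Finset (Fin (n + 1) × Bool)) : Finset (Fin n × Bool) :=
  L.preimage (liftLit n) ((liftLit n).injective.injOn)

lemma mem_downLits {n : ℕ} {L : Finset (Fin (n + 1) × Bool)} {l : Fin n × Bool} :
    l ∈ downLits L ↔ liftLit n l ∈ L := by
  simp [downLits]

lemma map_downLits {n : ℕ} {L : Finset (Fin (n + 1) × Bool)}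
    (h : ∀ l ∈ L, l.1 ≠ 0) : (downLits L).map (liftLit n) = L := by
  ext x
  simp only [Finset.mem_map, mem_downLits]
  constructor
  · rintro ⟨a, ha, rfl⟩
    exact ha
  · intro hx
    have h0 := h x hx
    obtain ⟨v, hv⟩ := Fin.exists_succ_eq.mpr h0
    refine ⟨(v, x.2), ?_, ?_⟩
    · simpa [hv] using hx
    · exact Prod.ext hv rfl

lemma injOn_down {n : ℕ} {L : Finset (Fin (n + 1) × Bool)}
    (h : Set.InjOn Prod.fst (L : Set (Fin (n + 1) × Bool))) :
    Set.InjOn Prod.fst (downLits L : Set (Fin n × Bool)) := by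
  intro a ha b hb hab
  have ha' : liftLit n a ∈ L := mem_downLits.mp ha
  have hb' : liftLit n b ∈ L := mem_downLits.mp hb
  have := h ha' hb' (by simp [hab])
  exact (liftLit n).injective this

lemma decomp_surj (k n : ℕ) : Function.Surjective (decompFun k n) := by
  rintro ⟨L, hcard, hinj⟩
  by_cases h0 : ∃ s, ((0 : Fin (n + 1)), s) ∈ L
  · obtain ⟨s, hs⟩ := h0
    set L' := L.erase ((0 : Fin (n + 1)), s) with hL'
    have hL'0 : ∀ l ∈ L', l.1 ≠ 0 := by
      intro l hl hl0
      rw [hL', Finset.mem_erase] at hl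
      exact hl.1 (hinj hl.2 hs hl0)
    have hmap := map_downLits hL'0
    have hc : (downLits L').card = k := by
      have h1 := congrArg Finset.card hmap
      rw [Finset.card_map, hL', Finset.card_erase_of_mem hs, hcard] at h1
      simpa using h1
    have hi : Set.InjOn Prod.fst (downLits L' : Set (Fin n × Bool)) :=
      injOn_down (hinj.mono (by
        intro x hx
        simp only [Finset.mem_coe] at hx ⊢
        exact Finset.mem_of_mem_erase hx))
    have hval : ∀ C : Clause k n, C.1 = downLits L' →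
        (upIns s C).1 = L := by
      intro C hC
      rw [upIns_val, hC, hmap, hL', Finset.insert_erase hs]
    cases s with
    | true =>
      refine ⟨Sum.inr (Sum.inl ⟨downLits L', hc, hi⟩), Clause.ext' ?_⟩
      exact hval _ rfl
    | false =>
      refine ⟨Sum.inr (Sum.inr ⟨downLits L', hc, hi⟩), Clause.ext' ?_⟩
      exact hval _ rfl
  · have hL0 : ∀ l ∈ L, l.1 ≠ 0 := by
      intro l hl hl0
      apply h0
      refine ⟨l.2, ?_⟩
      have : l = (0, l.2) := Prod.ext hl0 rfl
      rwa [← this]
    have hmap := map_downLits hL0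
    have hc : (downLits L).card = k + 1 := by
      have h1 := congrArg Finset.card hmap
      rw [Finset.card_map, hcard] at h1
      exact h1
    refine ⟨Sum.inl ⟨downLits L, hc, injOn_down hinj⟩, Clause.ext' ?_⟩
    exact hmap

/-- The decomposition of the clauses on one more variable. -/
noncomputable def decompEquiv (k n : ℕ) :
    Clause (k + 1) n ⊕ (Clause k n ⊕ Clause k n) ≃ Clause (k + 1) (n + 1) :=
  Equiv.ofBijective (decompFun k n) ⟨decomp_inj k n, decomp_surj k n⟩

/-- The number of clauses. -/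
noncomputable abbrev NC (k n : ℕ) : ℕ := Fintype.card (Clause k n)

lemma NC_succ_succ (k n : ℕ) : NC (k + 1) (n + 1) = NC (k + 1) n + 2 * NC k n := by
  have := Fintype.card_congr (decompEquiv k n)
  simp only [Fintype.card_sum] at this
  unfold NC
  omega

lemma NC_zero (n : ℕ) : NC 0 n = 1 := by
  have : Unique (Clause 0 n) := by
    refine ⟨⟨⟨∅, by simp, by simp⟩⟩, ?_⟩
    rintro ⟨L, h1, h2⟩
    apply Clause.ext'
    exact Finset.card_eq_zero.mp h1
  exact Fintype.card_unique

lemma NC_succ_zero (k : ℕ) : NC (k + 1) 0 = 0 := by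
  have : IsEmpty (Clause (k + 1) 0) := by
    constructor
    rintro ⟨L, h1, h2⟩
    have : L = ∅ := by
      apply Finset.eq_empty_of_forall_notMem
      rintro ⟨v, b⟩
      exact v.elim0
    subst this
    simp at h1
  exact Fintype.card_eq_zero

lemma NC_eq (k n : ℕ) : NC k n = n.choose k * 2 ^ k := by
  induction n generalizing k with
  | zero =>
    cases k with
    | zero => simp [NC_zero]
    | succ k => simp [NC_succ_zero]
  | succ n ih =>
    cases k with
    | zero => simp [NC_zero]
    | succ k =>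
      rw [NC_succ_succ, ih, ih, Nat.choose_succ_succ]
      ring

lemma NC_pos {k n : ℕ} (h : k ≤ n) : 0 < NC k n := by
  rw [NC_eq]
  exact Nat.mul_pos (Nat.choose_pos h) (by positivity)

lemma nonempty_clause {k n : ℕ} (h : k ≤ n) : Nonempty (Clause k n) :=
  Fintype.card_pos_iff.mp (NC_pos h)

section solutions

variable {k n : ℕ}

open Classical in
/-- The set of assignments satisfying a clause. -/
noncomputable def sol (C : Clause k n) : Finset (Fin n → Bool) :=
  Finset.univ.filter (fun σ => Satisfies σ C)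

lemma mem_sol {C : Clause k n} {σ : Fin n → Bool} : σ ∈ sol C ↔ Satisfies σ C := by
  simp [sol]

open Classical in
/-- Assignments on old variables that satisfy the clause when the new variable is set to true. -/
noncomputable def solT (C : Clause k (n + 1)) : Finset (Fin n → Bool) :=
  Finset.univ.filter (fun σ => Satisfies (Fin.cons true σ : Fin (n + 1) → Bool) C)

open Classical in
/-- Assignments on old variables that extend to an assignment satisfying the clause. -/
noncomputable def solE (C : Clause k (n + 1)) : Finset (Fin n → Bool) :=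
  Finset.univ.filter (fun σ => ∃ b : Bool, Satisfies (Fin.cons b σ : Fin (n + 1) → Bool) C)

lemma sat_up_iff {C : Clause k n} {σ : Fin n → Bool} {b : Bool} :
    Satisfies (Fin.cons b σ : Fin (n + 1) → Bool) (up C) ↔ Satisfies σ C := by
  unfold Satisfies
  rw [up_val]
  simp only [Finset.mem_map, liftLit_apply]
  constructor
  · rintro ⟨l, ⟨a, ha, rfl⟩, h⟩
    exact ⟨a, ha, by simpa using h⟩
  · rintro ⟨a, ha, h⟩
    exact ⟨_, ⟨a, ha, rfl⟩, by simpa using h⟩

lemma sat_upIns_iff {C : Clause k n} {σ : Fin n → Bool} {b s : Bool} :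
    Satisfies (Fin.cons b σ : Fin (n + 1) → Bool) (upIns s C) ↔ (b = s ∨ Satisfies σ C) := by
  unfold Satisfies
  rw [upIns_val]
  simp only [Finset.mem_insert, Finset.mem_map, liftLit_apply]
  constructor
  · rintro ⟨l, rfl | ⟨a, ha, rfl⟩, h⟩
    · left; simpa using h
    · right; exact ⟨a, ha, by simpa using h⟩
  · rintro (h | ⟨a, ha, h⟩)
    · exact ⟨_, Or.inl rfl, by simpa using h⟩
    · exact ⟨_, Or.inr ⟨a, ha, rfl⟩, by simpa using h⟩

lemma solT_up (C : Clause k n) : solT (up C) = sol C := by
  ext σ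
  simp [solT, sol, sat_up_iff]

lemma solT_upIns_true (C : Clause k n) : solT (upIns true C) = Finset.univ := by
  ext σ
  simp [solT, sat_upIns_iff]

lemma solT_upIns_false (C : Clause k n) : solT (upIns false C) = sol C := by
  ext σ
  simp [solT, sol, sat_upIns_iff]

lemma solE_up (C : Clause k n) : solE (up C) = sol C := by
  ext σ
  simp [solE, sol, sat_up_iff]

lemma solE_upIns (s : Bool) (C : Clause k n) : solE (upIns s C) = Finset.univ := by
  ext σ
  simp only [solE, Finset.mem_filter, Finset.mem_univ, true_and, iff_true]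
  exact ⟨s, sat_upIns_iff.mpr (Or.inl rfl)⟩

end solutions

section operators

variable (k n : ℕ)

/-- The ratio `b / (a + 2 b)` of the clause counts. -/
noncomputable def pr : ℝ := (NC k n : ℝ) / (NC (k + 1) (n + 1) : ℝ)

lemma pr_eq (h : k ≤ n) : pr k n = ((k : ℝ) + 1) / (2 * ((n : ℝ) + 1)) := by
  unfold pr
  rw [NC_eq, NC_eq]
  have h1 : (n + 1).choose (k + 1) * (k + 1) = (n + 1) * n.choose k :=
    (Nat.add_one_mul_choose_eq n k).symm
  have h2 : (((n + 1).choose (k + 1) : ℝ)) * ((k : ℝ) + 1) = ((n : ℝ) + 1) * (n.choose k : ℝ) := by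
    exact_mod_cast h1
  have hd : ((n + 1).choose (k + 1) : ℝ) ≠ 0 := by
    have : 0 < (n + 1).choose (k + 1) := Nat.choose_pos (by omega)
    exact_mod_cast this.ne'
  push_cast
  rw [div_eq_div_iff (by positivity) (by positivity)]
  linear_combination (-(2 : ℝ) ^ (k + 1)) * h2

lemma pr_nonneg : 0 ≤ pr k n := by
  unfold pr
  positivity

lemma pr_le_half (h : k + 1 ≤ n) : pr k n ≤ 1 / 2 := by
  rw [pr_eq k n (by omega)]
  have h1 : (k : ℝ) + 1 ≤ n := by exact_mod_cast h
  rw [div_le_iff₀ (by positivity)]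
  linarith

lemma sum_decomp {M : Type} [AddCommMonoid M] (f : Clause (k + 1) (n + 1) → M) :
    ∑ ω, f ω = ∑ C : Clause (k + 1) n, f (up C) + (∑ C : Clause k n, f (upIns true C)
      + ∑ C : Clause k n, f (upIns false C)) := by
  rw [← (decompEquiv k n).sum_comp, Fintype.sum_sum_type, Fintype.sum_sum_type]
  rfl

/-- The operator of the lower comparison is a mixture. -/
lemma Avg_solT (h : k + 1 ≤ n) :
    Avg (solT : Clause (k + 1) (n + 1) → _) =
      Lop (sol : Clause (k + 1) n → _) (sol : Clause k n → _) (pr k n) := by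
  apply LinearMap.ext
  intro g
  funext S
  have ha : (NC (k + 1) n : ℝ) ≠ 0 := by exact_mod_cast (NC_pos h).ne'
  have hb : (NC k n : ℝ) ≠ 0 := by exact_mod_cast (NC_pos (by omega : k ≤ n)).ne'
  have hN : (NC (k + 1) (n + 1) : ℝ) = (NC (k + 1) n : ℝ) + 2 * (NC k n : ℝ) := by
    rw [NC_succ_succ]; push_cast; ring
  have hN0 : (NC (k + 1) (n + 1) : ℝ) ≠ 0 := by
    exact_mod_cast (NC_pos (by omega : k + 1 ≤ n + 1)).ne'
  rw [Avg_apply, sum_decomp]
  simp only [solT_up, solT_upIns_true, solT_upIns_false, Finset.inter_univ]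
  simp only [Finset.sum_const, Finset.card_univ, nsmul_eq_mul]
  simp only [Lop, LinearMap.add_apply, LinearMap.smul_apply, Pi.add_apply, Pi.smul_apply,
    smul_eq_mul, Avg_apply, Module.End.one_apply]
  change ((_ + ((NC k n : ℝ) * g S + _)) / (NC (k + 1) (n + 1) : ℝ)) = _
  unfold pr
  change _ = (1 - 2 * ((NC k n : ℝ) / (NC (k + 1) (n + 1) : ℝ))) * (_ / (NC (k + 1) n : ℝ))
    + (NC k n : ℝ) / (NC (k + 1) (n + 1) : ℝ) * (_ / (NC k n : ℝ))
    + (NC k n : ℝ) / (NC (k + 1) (n + 1) : ℝ) * g S
  have e1 : 1 - 2 * ((NC k n : ℝ) / (NC (k + 1) (n + 1) : ℝ))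
      = (NC (k + 1) n : ℝ) / (NC (k + 1) (n + 1) : ℝ) := by
    rw [hN]
    have : (NC (k + 1) n : ℝ) + 2 * (NC k n : ℝ) ≠ 0 := by rw [← hN]; exact hN0
    field_simp
    ring
  rw [e1]
  field_simp
  ring

/-- The operator of the upper comparison is a mixture. -/
lemma Avg_solE (h : k + 1 ≤ n) :
    Avg (solE : Clause (k + 1) (n + 1) → _) =
      Uop (sol : Clause (k + 1) n → _) (pr k n) := by
  apply LinearMap.ext
  intro g
  funext S
  have ha : (NC (k + 1) n : ℝ) ≠ 0 := by exact_mod_cast (NC_pos h).ne'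
  have hb : (NC k n : ℝ) ≠ 0 := by exact_mod_cast (NC_pos (by omega : k ≤ n)).ne'
  have hN : (NC (k + 1) (n + 1) : ℝ) = (NC (k + 1) n : ℝ) + 2 * (NC k n : ℝ) := by
    rw [NC_succ_succ]; push_cast; ring
  have hN0 : (NC (k + 1) (n + 1) : ℝ) ≠ 0 := by
    exact_mod_cast (NC_pos (by omega : k + 1 ≤ n + 1)).ne'
  rw [Avg_apply, sum_decomp]
  simp only [solE_up, solE_upIns, Finset.inter_univ]
  simp only [Finset.sum_const, Finset.card_univ, nsmul_eq_mul]
  simp only [Uop, LinearMap.add_apply, LinearMap.smul_apply, Pi.add_apply, Pi.smul_apply,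
    smul_eq_mul, Avg_apply, Module.End.one_apply]
  change ((_ + ((NC k n : ℝ) * g S + (NC k n : ℝ) * g S)) / (NC (k + 1) (n + 1) : ℝ)) = _
  unfold pr
  change _ = (1 - 2 * ((NC k n : ℝ) / (NC (k + 1) (n + 1) : ℝ))) * (_ / (NC (k + 1) n : ℝ))
    + (2 * ((NC k n : ℝ) / (NC (k + 1) (n + 1) : ℝ))) * g S
  have e1 : 1 - 2 * ((NC k n : ℝ) / (NC (k + 1) (n + 1) : ℝ))
      = (NC (k + 1) n : ℝ) / (NC (k + 1) (n + 1) : ℝ) := by
    rw [hN]
    have : (NC (k + 1) n : ℝ) + 2 * (NC k n : ℝ) ≠ 0 := by rw [← hN]; exact hN0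
    field_simp
    ring
  rw [e1]
  field_simp
  ring

end operators

end Vale.Agent.Lib.P170
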