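import Mathlib

namespace Vale.Agent.Lib.P170

open Filter Topology

/-- A proper `k`-clause on the Boolean variables `Fin n`: a set of `k` literals, where a literal
is a pair (variable, sign), on `k` distinct variables. -/
def Clause (k n : ℕ) : Type :=
  {L : Finset (Fin n × Bool) // L.card = k ∧ Set.InjOn Prod.fst (L : Set (Fin n × Bool))}

/-- An assignment satisfies a clause when some literal of the clause agrees with it. -/
def Satisfies {k n : ℕ} (σ : Fin n → Bool) (C : Clause k n) : Prop :=
  ∃ l ∈ C.1, σ l.1 = l.2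

/-- The probability that `m` independent uniform proper `k`-clauses on `n` variables
are simultaneously satisfiable. -/
noncomputable def satProb (k n m : ℕ) : ℝ :=
  ({F : Fin m → Clause k n | ∃ σ : Fin n → Bool, ∀ i, Satisfies σ (F i)}.ncard : ℝ) /
    (Nat.card (Clause k n) : ℝ) ^ m

/-- `r` is a threshold sequence for random `k`-SAT, in the sense of Friedgut's theorem. -/
def IsThresholdSeq (k : ℕ) (r : ℕ → ℝ) : Prop :=
  ∀ ε : ℝ, 0 < ε →
    Tendsto (fun n : ℕ => satProb k n ⌊(r n - ε) * (n : ℝ)⌋₊) atTop (𝓝 1) ∧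
    Tendsto (fun n : ℕ => satProb k n ⌊(r n + ε) * (n : ℝ)⌋₊) atTop (𝓝 0)

end Vale.Agent.Lib.P170
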