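import Vale.Agent.Lib.P170.Clauses

namespace Vale.Agent.Lib.P170

open Finset

set_option linter.unusedSectionVars false
set_option linter.unusedVariables false
set_option linter.style.haveILetI false

section counting

variable {Ω : Type} [Fintype Ω] [Nonempty Ω] {X : Type} [DecidableEq X] [Fintype X]

/-- Iterated averaging of the indicator at the full set counts satisfiable sequences. -/
lemma pow_g0_univ (A : Ω → Finset X) (m : ℕ) :
    ((Avg A) ^ m) (g0 : Fn X) Finset.univ =
      ({F : Fin m → Ω | ∃ x, ∀ i, x ∈ A (F i)}.ncard : ℝ) / (Fintype.card Ω : ℝ) ^ m := by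
  classical
  rw [Avg_pow_apply]
  congr 1
  have h1 : ∀ F : Fin m → Ω, (g0 : Fn X) (Finset.univ.filter (fun x => ∀ i, x ∈ A (F i)))
      = if (∃ x, ∀ i, x ∈ A (F i)) then 1 else 0 := by
    intro F
    unfold g0
    by_cases h : ∃ x, ∀ i, x ∈ A (F i)
    · rw [if_pos h, if_pos]
      obtain ⟨x, hx⟩ := h
      exact ⟨x, by simpa using hx⟩
    · rw [if_neg h, if_neg]
      rintro ⟨x, hx⟩
      exact h ⟨x, by simpa using hx⟩
  simp only [h1]
  rw [Finset.sum_boole, Set.ncard_eq_toFinset_card']
  congr 2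
  ext F
  simp

end counting

section probs

variable (k n m : ℕ)

lemma satProb_eq (h : k ≤ n) :
    satProb k n m = ((Avg (sol : Clause k n → _)) ^ m) (g0 : Fn (Fin n → Bool)) Finset.univ := by
  haveI := nonempty_clause h
  rw [pow_g0_univ]
  unfold satProb
  rw [Nat.card_eq_fintype_card]
  congr 3
  ext F
  simp [mem_sol]

lemma satProb_anti (h : k ≤ n) {a b : ℕ} (hab : a ≤ b) : satProb k n b ≤ satProb k n a := by
  haveI := nonempty_clause h
  rw [satProb_eq k n _ h, satProb_eq k n _ h]
  exact T_pow_anti _ hab _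

lemma satProb_zero (h : k ≤ n) : satProb k n 0 = 1 := by
  rw [satProb_eq k n 0 h]
  simp [g0]

lemma satProb_ge_T (h : k + 1 ≤ n + 1) :
    ((Avg (solT : Clause (k + 1) (n + 1) → _)) ^ m) (g0 : Fn (Fin n → Bool)) Finset.univ
      ≤ satProb (k + 1) (n + 1) m := by
  haveI := nonempty_clause h
  rw [pow_g0_univ]
  unfold satProb
  rw [Nat.card_eq_fintype_card]
  apply div_le_div_of_nonneg_right _ (by positivity)
  have : {F : Fin m → Clause (k + 1) (n + 1) | ∃ x : Fin n → Bool, ∀ i, x ∈ solT (F i)} ⊆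
      {F | ∃ σ : Fin (n + 1) → Bool, ∀ i, Satisfies σ (F i)} := by
    rintro F ⟨x, hx⟩
    refine ⟨Fin.cons true x, fun i => ?_⟩
    have := hx i
    simpa [solT] using this
  exact_mod_cast Set.ncard_le_ncard this (Set.toFinite _)

lemma satProb_le_E (h : k + 1 ≤ n + 1) :
    satProb (k + 1) (n + 1) m ≤
      ((Avg (solE : Clause (k + 1) (n + 1) → _)) ^ m) (g0 : Fn (Fin n → Bool)) Finset.univ := by
  haveI := nonempty_clause h
  rw [pow_g0_univ]
  unfold satProb
  rw [Nat.card_eq_fintype_card]
  apply div_le_div_of_nonneg_right _ (by positivity)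
  have : {F : Fin m → Clause (k + 1) (n + 1) | ∃ σ : Fin (n + 1) → Bool, ∀ i, Satisfies σ (F i)} ⊆
      {F | ∃ x : Fin n → Bool, ∀ i, x ∈ solE (F i)} := by
    rintro F ⟨τ, hτ⟩
    refine ⟨Fin.tail τ, fun i => ?_⟩
    simp only [solE, Finset.mem_filter, Finset.mem_univ, true_and]
    refine ⟨τ 0, ?_⟩
    rw [Fin.cons_self_tail]
    exact hτ i
  exact_mod_cast Set.ncard_le_ncard this (Set.toFinite _)

end probs

section comparisons

variable (k n m J : ℕ)

theorem upper_cmp (hn : k + 1 ≤ n) :
    satProb (k + 1) (n + 1) m ≤ satProb (k + 1) n (m - J)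
      + ((m : ℝ) * ((k + 1 : ℝ) / (n + 1))) / (J + 1) := by
  haveI := nonempty_clause hn
  have h1 := satProb_le_E k n m (by omega)
  rw [Avg_solE k n hn] at h1
  have h2 := upper_abstract (sol : Clause (k + 1) n → _) (pr_nonneg k n) (pr_le_half k n hn) m J
    (Finset.univ : Finset (Fin n → Bool))
  rw [← satProb_eq (k + 1) n _ hn] at h2
  have e : 2 * pr k n = (k + 1 : ℝ) / (n + 1) := by
    rw [pr_eq k n (by omega)]
    have : (n : ℝ) + 1 ≠ 0 := by positivity
    field_simp
  rw [e] at h2
  linarith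

theorem lower_cmp (E : ℕ) (δ : ℝ) (hn : k + 1 ≤ n)
    (hH : ∀ S : Finset (Fin n → Bool),
      ((Avg (sol : Clause (k + 1) n → _)) ^ E) (g0 : Fn (Fin n → Bool)) S - δ
        ≤ Avg (sol : Clause k n → _) g0 S)
    (hθ : 0 ≤ 1 - ((m : ℝ) * ((k + 1 : ℝ) / (2 * (n + 1)))) / (J + 1)) :
    (1 - ((m : ℝ) * ((k + 1 : ℝ) / (2 * (n + 1)))) / (J + 1)) *
        (satProb (k + 1) n (m + J * E) - J * δ)
      ≤ satProb (k + 1) (n + 1) m := by
  haveI := nonempty_clause hn
  haveI := nonempty_clause (by omega : k ≤ n)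
  have h1 := satProb_ge_T k n m (by omega)
  rw [Avg_solT k n hn] at h1
  refine le_trans ?_ h1
  have h2 := lower_abstract (sol : Clause (k + 1) n → _) (sol : Clause k n → _)
    (pr_nonneg k n) (pr_le_half k n hn) J m (Finset.univ : Finset (Fin n → Bool))
  refine le_trans ?_ h2
  rw [pr_eq k n (by omega)]
  apply mul_le_mul_of_nonneg_left _ hθ
  have h3 := chain (sol : Clause (k + 1) n → _) (sol : Clause k n → _) hH m J
    (Finset.univ : Finset (Fin n → Bool))
  rw [← satProb_eq (k + 1) n _ hn] at h3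
  exact h3

end comparisons

section frozen

variable {n : ℕ}

open Classical in
/-- Literals false on every assignment in `S`. -/
noncomputable def falseLits (S : Finset (Fin n → Bool)) : Finset (Fin n × Bool) :=
  Finset.univ.filter (fun l => ∀ σ ∈ S, σ l.1 ≠ l.2)

lemma mem_falseLits {S : Finset (Fin n → Bool)} {l : Fin n × Bool} :
    l ∈ falseLits S ↔ ∀ σ ∈ S, σ l.1 ≠ l.2 := by
  simp [falseLits]

lemma falseLits_anti {S T : Finset (Fin n → Bool)} (h : S ⊆ T) : falseLits T ⊆ falseLits S := by
  intro l hl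
  rw [mem_falseLits] at hl ⊢
  exact fun σ hσ => hl σ (h hσ)

lemma falseLits_injOn {S : Finset (Fin n → Bool)} (hS : S.Nonempty) :
    Set.InjOn Prod.fst (falseLits S : Set (Fin n × Bool)) := by
  rintro ⟨v, b⟩ h1 ⟨w, c⟩ h2 hvw
  simp only at hvw
  subst hvw
  obtain ⟨σ, hσ⟩ := hS
  have h3 := (mem_falseLits.mp (Finset.mem_coe.mp h1)) σ hσ
  have h4 := (mem_falseLits.mp (Finset.mem_coe.mp h2)) σ hσ
  simp only at h3 h4
  have : b = c := by
    cases hb : b <;> cases hc : c <;> cases hs : σ v <;> simp_all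
  rw [this]

lemma falseLits_card_le {S : Finset (Fin n → Bool)} (hS : S.Nonempty) :
    (falseLits S).card ≤ n := by
  have := Finset.card_le_card_of_injOn (s := falseLits S) (t := (Finset.univ : Finset (Fin n)))
    Prod.fst (fun _ _ => Finset.mem_coe.mpr (Finset.mem_univ _)) (falseLits_injOn hS)
  simpa using this

lemma inter_sol_eq_empty {j : ℕ} {S : Finset (Fin n → Bool)} {C : Clause j n} :
    S ∩ sol C = ∅ ↔ C.1 ⊆ falseLits S := by
  rw [Finset.eq_empty_iff_forall_notMem]
  constructor
  · intro h l hl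
    rw [mem_falseLits]
    intro σ hσ hl2
    exact h σ (Finset.mem_inter.mpr ⟨hσ, mem_sol.mpr ⟨l, hl, hl2⟩⟩)
  · intro h σ hσ
    rw [Finset.mem_inter] at hσ
    obtain ⟨l, hl, hl2⟩ := mem_sol.mp hσ.2
    exact (mem_falseLits.mp (h hl)) σ hσ.1 hl2

open Classical in
lemma card_killing {j : ℕ} {S : Finset (Fin n → Bool)} (hS : S.Nonempty) :
    (Finset.univ.filter (fun C : Clause j n => C.1 ⊆ falseLits S)).card
      = (falseLits S).card.choose j := by
  rw [← Finset.card_powersetCard]
  apply Finset.card_bij (fun C _ => C.1)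
  · intro C hC
    rw [Finset.mem_powersetCard]
    exact ⟨(Finset.mem_filter.mp hC).2, C.2.1⟩
  · intro C _ D _ h
    exact Subtype.ext h
  · intro L hL
    rw [Finset.mem_powersetCard] at hL
    refine ⟨⟨L, hL.2, (falseLits_injOn hS).mono (by
      intro x hx
      exact Finset.mem_coe.mpr (hL.1 (Finset.mem_coe.mp hx)))⟩, ?_, rfl⟩
    exact Finset.mem_filter.mpr ⟨Finset.mem_univ _, hL.1⟩

/-- The probability of killing a nonempty set by one clause. -/
noncomputable def killP (j : ℕ) (S : Finset (Fin n → Bool)) : ℝ :=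
  ((falseLits S).card.choose j : ℝ) / (NC j n : ℝ)

lemma killP_le_one {j : ℕ} {S : Finset (Fin n → Bool)} (hS : S.Nonempty) :
    killP j S ≤ 1 := by
  classical
  unfold killP
  apply div_le_one_of_le₀ _ (by positivity)
  rw [← card_killing hS]
  exact_mod_cast (Finset.card_le_univ _)

lemma killP_nonneg {j : ℕ} {S : Finset (Fin n → Bool)} : 0 ≤ killP j S := by
  unfold killP
  positivity

lemma killP_anti {j : ℕ} {S T : Finset (Fin n → Bool)} (h : S ⊆ T) :
    killP j T ≤ killP j S := by
  unfold killP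
  apply div_le_div_of_nonneg_right _ (by positivity)
  exact_mod_cast Nat.choose_le_choose j (Finset.card_le_card (falseLits_anti h))

lemma Avg_g0_eq {j : ℕ} (hj : j ≤ n) {S : Finset (Fin n → Bool)} (hS : S.Nonempty) :
    Avg (sol : Clause j n → _) (g0 : Fn (Fin n → Bool)) S = 1 - killP j S := by
  classical
  rw [Avg_apply]
  have hN : (Fintype.card (Clause j n) : ℝ) ≠ 0 := by
    exact_mod_cast (NC_pos hj).ne'
  have h1 : ∀ C : Clause j n, (g0 : Fn (Fin n → Bool)) (S ∩ sol C)
      = 1 - (if C.1 ⊆ falseLits S then 1 else 0) := by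
    intro C
    unfold g0
    by_cases h : C.1 ⊆ falseLits S
    · rw [if_pos h, if_neg]
      · norm_num
      · rw [inter_sol_eq_empty.mpr h]; simp
    · rw [if_neg h, if_pos]
      · norm_num
      · rw [Finset.nonempty_iff_ne_empty]
        exact fun h2 => h (inter_sol_eq_empty.mp h2)
  simp only [h1]
  rw [Finset.sum_sub_distrib, Finset.sum_boole, card_killing hS]
  simp only [Finset.sum_const, Finset.card_univ, nsmul_eq_mul, mul_one]
  unfold killP
  rw [sub_div, div_self hN]

lemma Avg_pow_empty {Ω : Type} [Fintype Ω] {X : Type} [DecidableEq X] (A : Ω → Finset X) (E : ℕ) :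
    ((Avg A) ^ E) (g0 : Fn X) ∅ = 0 := by
  induction E with
  | zero => simp [g0]
  | succ E ih =>
    rw [pow_succ']
    show Avg A (((Avg A) ^ E) g0) ∅ = 0
    rw [Avg_apply]
    simp [ih]

lemma Avg_pow_le {j : ℕ} (hj : j ≤ n) (E : ℕ) {S : Finset (Fin n → Bool)} (hS : S.Nonempty) :
    ((Avg (sol : Clause j n → _)) ^ E) (g0 : Fn (Fin n → Bool)) S ≤ (1 - killP j S) ^ E := by
  classical
  induction E generalizing S with
  | zero => simp [g0, hS]
  | succ E ih =>
    rw [pow_succ']
    show Avg (sol : Clause j n → _) (((Avg (sol : Clause j n → _)) ^ E) g0) S ≤ _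
    rw [Avg_apply]
    have hN : (0 : ℝ) < (Fintype.card (Clause j n) : ℝ) := by
      exact_mod_cast (NC_pos hj)
    rw [div_le_iff₀ hN]
    have hq0 := killP_nonneg (j := j) (S := S)
    have hq1 := killP_le_one (j := j) hS
    have h1 : ∀ C : Clause j n,
        ((Avg (sol : Clause j n → _)) ^ E) (g0 : Fn (Fin n → Bool)) (S ∩ sol C)
        ≤ (1 - (if C.1 ⊆ falseLits S then 1 else 0)) * (1 - killP j S) ^ E := by
      intro C
      by_cases h : C.1 ⊆ falseLits S
      · rw [if_pos h, inter_sol_eq_empty.mpr h, Avg_pow_empty]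
        norm_num
      · rw [if_neg h]
        have hne : (S ∩ sol C).Nonempty := by
          rw [Finset.nonempty_iff_ne_empty]
          exact fun h2 => h (inter_sol_eq_empty.mp h2)
        have h2 := ih hne
        have h3 : 1 - killP j (S ∩ sol C) ≤ 1 - killP j S := by
          have := killP_anti (j := j) (Finset.inter_subset_left : S ∩ sol C ⊆ S)
          linarith
        have h4 : 0 ≤ 1 - killP j (S ∩ sol C) := by
          have := killP_le_one (j := j) hne
          linarith
        have h5 := pow_le_pow_left₀ h4 h3 E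
        linarith
    refine le_trans (Finset.sum_le_sum (fun C _ => h1 C)) ?_
    rw [← Finset.sum_mul, Finset.sum_sub_distrib, Finset.sum_boole, card_killing hS]
    simp only [Finset.sum_const, Finset.card_univ, nsmul_eq_mul, mul_one]
    have e : (Fintype.card (Clause j n) : ℝ) - ((falseLits S).card.choose j : ℝ)
        = (1 - killP j S) * (Fintype.card (Clause j n) : ℝ) := by
      unfold killP
      have : (NC j n : ℝ) ≠ 0 := hN.ne'
      field_simp
    rw [e, pow_succ]
    apply le_of_eq
    ring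

end frozen

section numeric

/-- A bound on ratios of binomial coefficients. -/
lemma choose_mul_le {z n k : ℕ} (hz : z ≤ n) (hk : 1 ≤ k) :
    z.choose k * n ≤ n.choose k * z := by
  obtain ⟨k, rfl⟩ : ∃ k', k = k' + 1 := ⟨k - 1, by omega⟩
  rcases Nat.eq_zero_or_pos z with rfl | hz0
  · simp
  obtain ⟨z, rfl⟩ : ∃ z', z = z' + 1 := ⟨z - 1, by omega⟩
  obtain ⟨n, rfl⟩ : ∃ n', n = n' + 1 := ⟨n - 1, by omega⟩
  have h1 : (z + 1).choose (k + 1) * (k + 1) = (z + 1) * z.choose k :=
    (Nat.add_one_mul_choose_eq z k).symm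
  have h2 : (n + 1).choose (k + 1) * (k + 1) = (n + 1) * n.choose k :=
    (Nat.add_one_mul_choose_eq n k).symm
  have h3 : z.choose k ≤ n.choose k := Nat.choose_le_choose k (by omega)
  apply Nat.le_of_mul_le_mul_right (c := k + 1) _ (by omega)
  calc (z + 1).choose (k + 1) * (n + 1) * (k + 1)
      = ((z + 1).choose (k + 1) * (k + 1)) * (n + 1) := by ring
    _ = (z + 1) * z.choose k * (n + 1) := by rw [h1]
    _ ≤ (z + 1) * n.choose k * (n + 1) := by gcongr
    _ = ((n + 1) * n.choose k) * (z + 1) := by ring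
    _ = (n + 1).choose (k + 1) * (z + 1) * (k + 1) := by rw [← h2]; ring

/-- The key numeric inequality comparing the killing probabilities. -/
lemma numeric_key {n k z E : ℕ} {δ : ℝ} (hk : 1 ≤ k) (hkn : k < n) (hz : z ≤ n) (hδ : 0 < δ)
    (hE : 2 ≤ δ ^ 2 * E) (hnδ : (k : ℝ) ≤ n * δ) :
    (1 - (z.choose (k + 1) : ℝ) / (NC (k + 1) n : ℝ)) ^ E - δ
      ≤ 1 - (z.choose k : ℝ) / (NC k n : ℝ) := by
  set u := (z.choose k : ℝ) / (NC k n : ℝ) with hu
  set q := (z.choose (k + 1) : ℝ) / (NC (k + 1) n : ℝ) with hq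
  have hn0 : (0 : ℝ) < n := by exact_mod_cast (by omega : 0 < n)
  have hC0 : (0 : ℝ) < (n.choose k : ℝ) := by exact_mod_cast Nat.choose_pos (by omega)
  have hC1 : (0 : ℝ) < (n.choose (k + 1) : ℝ) := by exact_mod_cast Nat.choose_pos (by omega)
  have hpow : (0 : ℝ) < 2 ^ k := by positivity
  have hNk : (NC k n : ℝ) = (n.choose k : ℝ) * 2 ^ k := by
    rw [NC_eq]; push_cast; ring
  have hNk1 : (NC (k + 1) n : ℝ) = (n.choose (k + 1) : ℝ) * 2 ^ (k + 1) := by
    rw [NC_eq]; push_cast; ring
  have hzr : (z : ℝ) ≤ n := by exact_mod_cast hz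
  have hq0 : 0 ≤ q := by rw [hq]; positivity
  have hq1 : q ≤ 1 := by
    rw [hq, hNk1]
    apply div_le_one_of_le₀ _ (by positivity)
    have h1 : (z.choose (k + 1) : ℝ) ≤ (n.choose (k + 1) : ℝ) := by
      exact_mod_cast Nat.choose_le_choose (k + 1) hz
    have h2 : (1 : ℝ) ≤ 2 ^ (k + 1) := one_le_pow₀ (by norm_num)
    nlinarith
  -- first bound on `u`
  have h2k : (2 : ℝ) ≤ 2 ^ k := by
    calc (2 : ℝ) = 2 ^ 1 := by norm_num
      _ ≤ 2 ^ k := pow_le_pow_right₀ (by norm_num) hk
  have hcm : (z.choose k : ℝ) * n ≤ (n.choose k : ℝ) * z := by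
    exact_mod_cast choose_mul_le hz hk
  have hu1 : u * (2 * n) ≤ z := by
    rw [hu, hNk, div_mul_eq_mul_div, div_le_iff₀ (by positivity)]
    nlinarith [Nat.cast_nonneg (α := ℝ) z, mul_nonneg (Nat.cast_nonneg (α := ℝ) (z.choose k)) hn0.le,
      mul_le_mul_of_nonneg_left h2k (mul_nonneg (Nat.cast_nonneg (α := ℝ) (z.choose k)) hn0.le)]
  have hu0 : 0 ≤ u := by rw [hu]; positivity
  have hu2 : u ≤ 1 / 2 := by
    have : u * (2 * n) ≤ n := hu1.trans hzr
    have h3 : u * 2 ≤ 1 := by
      by_contra hcon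
      have h4 : 1 < u * 2 := not_le.mp hcon
      nlinarith
    linarith
  have hpowq : (1 - q) ^ E ≤ 1 := pow_le_one₀ (by linarith) (by linarith)
  by_cases hcase : u ≤ δ
  · linarith
  · have hδu : δ < u := not_le.mp hcase
    have hz1 : 2 * (n : ℝ) * δ < z := by
      have : δ * (2 * n) < u * (2 * n) := by
        apply mul_lt_mul_of_pos_right hδu (by positivity)
      linarith
    have hzk : (k : ℝ) < z := by
      have : (0 : ℝ) < n * δ := by positivity
      linarith
    -- relation between `q` and `u`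
    have hzk' : k ≤ z := by
      have : (k : ℝ) ≤ z := hzk.le
      exact_mod_cast this
    have e1 : (z.choose (k + 1) : ℝ) * ((k : ℝ) + 1) = (z.choose k : ℝ) * ((z : ℝ) - k) := by
      have := Nat.choose_succ_right_eq z k
      have h2 : ((z.choose (k + 1) * (k + 1) : ℕ) : ℝ) = ((z.choose k * (z - k) : ℕ) : ℝ) := by
        rw [this]
      push_cast [Nat.cast_sub hzk'] at h2
      exact h2
    have e2 : (n.choose (k + 1) : ℝ) * ((k : ℝ) + 1) = (n.choose k : ℝ) * ((n : ℝ) - k) := by
      have := Nat.choose_succ_right_eq n k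
      have h2 : ((n.choose (k + 1) * (k + 1) : ℕ) : ℝ) = ((n.choose k * (n - k) : ℕ) : ℝ) := by
        rw [this]
      push_cast [Nat.cast_sub hkn.le] at h2
      exact h2
    have hnk : (0 : ℝ) < (n : ℝ) - k := by
      have : (k : ℝ) < n := by exact_mod_cast hkn
      linarith
    have hqu : q * (2 * ((n : ℝ) - k)) = u * ((z : ℝ) - k) := by
      have e5 : q * (2 * ((n : ℝ) - k))
          = (z.choose (k + 1) : ℝ) * ((n : ℝ) - k) / ((n.choose (k + 1) : ℝ) * 2 ^ k) := by
        rw [hq, hNk1, pow_succ]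
        field_simp
      have e6 : u * ((z : ℝ) - k)
          = (z.choose (k + 1) : ℝ) * ((k : ℝ) + 1) / ((n.choose k : ℝ) * 2 ^ k) := by
        rw [hu, hNk, e1]
        field_simp
      rw [e5, e6, div_eq_div_iff (by positivity) (by positivity)]
      linear_combination (-(z.choose (k + 1) : ℝ) * 2 ^ k) * e2
    have hzk2 : (n : ℝ) * δ ≤ (z : ℝ) - k := by linarith
    have hq2 : δ ^ 2 / 2 ≤ q := by
      have h5 : u * ((n : ℝ) * δ) ≤ u * ((z : ℝ) - k) :=
        mul_le_mul_of_nonneg_left hzk2 hu0
      have h6 : δ * ((n : ℝ) * δ) ≤ u * ((n : ℝ) * δ) :=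
        mul_le_mul_of_nonneg_right hδu.le (by positivity)
      have h7 : q * (2 * ((n : ℝ) - k)) ≤ q * (2 * n) := by
        apply mul_le_mul_of_nonneg_left _ hq0
        have : (0 : ℝ) ≤ k := by positivity
        linarith
      have h8 : δ ^ 2 / 2 * (2 * (n : ℝ)) ≤ q * (2 * n) := by
        nlinarith
      exact le_of_mul_le_mul_right h8 (by positivity)
    have hexp : (1 - q) ^ E ≤ 1 / 2 := by
      have h1 : 1 - q ≤ Real.exp (-q) := by
        have := Real.add_one_le_exp (-q)
        linarith
      have h2 : (1 - q) ^ E ≤ Real.exp (-q) ^ E := pow_le_pow_left₀ (by linarith) h1 E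
      have h3 : Real.exp (-q) ^ E = Real.exp (-(q * E)) := by
        rw [← Real.exp_nat_mul]
        congr 1
        ring
      have h4 : 1 ≤ q * E := by
        have hEnn : (0 : ℝ) ≤ E := by positivity
        have := mul_le_mul_of_nonneg_right hq2 hEnn
        nlinarith
      have h5 : Real.exp (-(q * E)) ≤ Real.exp (-1) := Real.exp_le_exp.mpr (by linarith)
      have h6 : Real.exp (-1) ≤ 1 / 2 := by
        rw [Real.exp_neg, inv_eq_one_div]
        apply one_div_le_one_div_of_le (by norm_num)
        have := Real.exp_one_gt_d9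
        linarith
      linarith
    linarith

/-- The pointwise comparison of one shorter clause with many clauses. -/
theorem pointwise_H {n k E : ℕ} {δ : ℝ} (hk : 1 ≤ k) (hkn : k < n) (hδ : 0 < δ)
    (hE : 2 ≤ δ ^ 2 * E) (hnδ : (k : ℝ) ≤ n * δ) (S : Finset (Fin n → Bool)) :
    ((Avg (sol : Clause (k + 1) n → _)) ^ E) (g0 : Fn (Fin n → Bool)) S - δ
      ≤ Avg (sol : Clause k n → _) g0 S := by
  by_cases hS : S.Nonempty
  · rw [Avg_g0_eq (by omega : k ≤ n) hS]
    have h1 := Avg_pow_le (by omega : k + 1 ≤ n) E hS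
    have h2 := numeric_key (z := (falseLits S).card) hk hkn (falseLits_card_le hS) hδ hE hnδ
    have h3 : ∀ j, killP j S = ((falseLits S).card.choose j : ℝ) / (NC j n : ℝ) := fun _ => rfl
    rw [h3] at h1 ⊢
    linarith
  · rw [Finset.not_nonempty_iff_eq_empty] at hS
    subst hS
    rw [Avg_pow_empty]
    have : Avg (sol : Clause k n → _) (g0 : Fn (Fin n → Bool)) ∅ = 0 := by
      have := Avg_pow_empty (sol : Clause k n → _) 1
      simpa using this
    rw [this]
    linarith

end numeric

section firstMoment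

variable {n k : ℕ}

/-- A singleton set has one false literal per variable. -/
lemma falseLits_singleton_card (σ : Fin n → Bool) : (falseLits {σ}).card = n := by
  have hinj := falseLits_injOn (S := {σ}) (Finset.singleton_nonempty σ)
  have : (falseLits {σ}) = (Finset.univ : Finset (Fin n)).image (fun v => (v, !σ v)) := by
    ext ⟨v, b⟩
    simp only [mem_falseLits, Finset.mem_singleton, forall_eq, Finset.mem_image, Finset.mem_univ,
      true_and, Prod.mk.injEq]
    constructor
    · intro h
      refine ⟨v, rfl, ?_⟩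
      cases hb : b <;> cases hs : σ v <;> simp_all
    · rintro ⟨w, rfl, rfl⟩
      cases hs : σ w <;> simp
  rw [this, Finset.card_image_of_injective]
  · simp
  · intro a b h
    exact (Prod.mk.inj h).1

/-- The first moment bound. -/
lemma first_moment_aux (hk : k ≤ n) (m : ℕ) (S : Finset (Fin n → Bool)) :
    ((Avg (sol : Clause k n → _)) ^ m) (g0 : Fn (Fin n → Bool)) S
      ≤ (S.card : ℝ) * (1 - 1 / 2 ^ k) ^ m := by
  classical
  have hrho0 : (0 : ℝ) ≤ 1 - 1 / 2 ^ k := by
    have : (1 : ℝ) / 2 ^ k ≤ 1 := by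
      rw [div_le_one (by positivity)]
      exact one_le_pow₀ (by norm_num)
    linarith
  induction m generalizing S with
  | zero =>
    simp only [pow_zero, Module.End.one_apply, mul_one]
    unfold g0
    by_cases h : S.Nonempty
    · rw [if_pos h]
      exact_mod_cast Finset.card_pos.mpr h
    · rw [if_neg h]
      positivity
  | succ m ih =>
    rw [pow_succ']
    show Avg (sol : Clause k n → _) (((Avg (sol : Clause k n → _)) ^ m) g0) S ≤ _
    rw [Avg_apply]
    have hN : (0 : ℝ) < (Fintype.card (Clause k n) : ℝ) := by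
      exact_mod_cast (NC_pos hk)
    rw [div_le_iff₀ hN]
    have h1 : ∀ C : Clause k n,
        ((Avg (sol : Clause k n → _)) ^ m) (g0 : Fn (Fin n → Bool)) (S ∩ sol C)
        ≤ ((S ∩ sol C).card : ℝ) * (1 - 1 / 2 ^ k) ^ m := fun C => ih _
    refine le_trans (Finset.sum_le_sum (fun C _ => h1 C)) ?_
    rw [← Finset.sum_mul]
    -- double counting
    have h2 : (∑ C : Clause k n, ((S ∩ sol C).card : ℝ))
        = (S.card : ℝ) * ((Fintype.card (Clause k n) : ℝ) * (1 - 1 / 2 ^ k)) := by
      have h3 : ∀ C : Clause k n, ((S ∩ sol C).card : ℝ) =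
          ∑ σ ∈ S, (if σ ∈ sol C then (1 : ℝ) else 0) := by
        intro C
        rw [Finset.sum_boole]
        congr 2
      simp only [h3]
      rw [Finset.sum_comm]
      have h4 : ∀ σ ∈ S, (∑ C : Clause k n, (if σ ∈ sol C then (1 : ℝ) else 0))
          = (Fintype.card (Clause k n) : ℝ) * (1 - 1 / 2 ^ k) := by
        intro σ _
        have h5 : ∀ C : Clause k n, (if σ ∈ sol C then (1 : ℝ) else 0)
            = 1 - (if C.1 ⊆ falseLits {σ} then 1 else 0) := by
          intro C
          have h6 := inter_sol_eq_empty (S := {σ}) (C := C)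
          by_cases hC : C.1 ⊆ falseLits {σ}
          · have h7 := h6.mpr hC
            have h8 : σ ∉ sol C := by
              intro h9
              have : σ ∈ ({σ} : Finset (Fin n → Bool)) ∩ sol C :=
                Finset.mem_inter.mpr ⟨Finset.mem_singleton_self σ, h9⟩
              rw [h7] at this
              simp at this
            rw [if_neg h8, if_pos hC]
            norm_num
          · have h8 : σ ∈ sol C := by
              by_contra h9
              apply hC
              apply h6.mp
              rw [Finset.eq_empty_iff_forall_notMem]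
              intro x hx
              rw [Finset.mem_inter, Finset.mem_singleton] at hx
              rw [hx.1] at hx
              exact h9 hx.2
            rw [if_pos h8, if_neg hC]
            norm_num
        simp only [h5]
        rw [Finset.sum_sub_distrib, Finset.sum_boole, card_killing (Finset.singleton_nonempty σ),
          falseLits_singleton_card]
        simp only [Finset.sum_const, Finset.card_univ, nsmul_eq_mul, mul_one]
        have h6 : (Fintype.card (Clause k n) : ℝ) = (n.choose k : ℝ) * 2 ^ k := by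
          have := NC_eq k n
          unfold NC at this
          rw [this]; push_cast; ring
        rw [h6]
        field_simp
      rw [Finset.sum_congr rfl h4]
      simp only [Finset.sum_const, nsmul_eq_mul]
    rw [h2, pow_succ]
    apply le_of_eq
    ring

lemma first_moment (hk : k ≤ n) (m : ℕ) :
    satProb k n m ≤ (2 : ℝ) ^ n * (1 - 1 / 2 ^ k) ^ m := by
  rw [satProb_eq k n m hk]
  have := first_moment_aux hk m Finset.univ
  simpa [Finset.card_univ] using this

end firstMoment

end Vale.Agent.Lib.P170
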