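import Vale.Agent.Lib.P170.Frozen

namespace Vale.Agent.Lib.P170

open Filter Topology

set_option linter.unusedVariables false

/-- Threshold sequences are bounded above, by the first moment bound. -/
lemma exists_bound {k : ℕ} {r : ℕ → ℝ} (h : IsThresholdSeq k r) :
    ∃ C : ℝ, 0 < C ∧ ∀ᶠ n : ℕ in atTop, r n ≤ C := by
  have hρ0 : (0 : ℝ) ≤ 1 - 1 / 2 ^ k := by
    have : (1 : ℝ) / 2 ^ k ≤ 1 := by
      rw [div_le_one (by positivity)]
      exact one_le_pow₀ (by norm_num)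
    linarith
  have hρ1 : (1 : ℝ) - 1 / 2 ^ k < 1 := by
    have : (0 : ℝ) < 1 / 2 ^ k := by positivity
    linarith
  obtain ⟨L, hL⟩ := exists_pow_lt_of_lt_one (by norm_num : (0 : ℝ) < 1 / 2) hρ1
  have hE1 : ∀ᶠ n : ℕ in atTop, (1 / 2 : ℝ) < satProb k n ⌊(r n - 1) * (n : ℝ)⌋₊ :=
    (h 1 one_pos).1.eventually (lt_mem_nhds (by norm_num))
  refine ⟨2 * L + 2, by positivity, ?_⟩
  filter_upwards [hE1, eventually_ge_atTop (k + 2)] with n h1 hn
  set m := ⌊(r n - 1) * (n : ℝ)⌋₊ with hm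
  have hfm := first_moment (by omega : k ≤ n) m
  have hlt : m < L * (n + 2) := by
    by_contra hcon
    have hge : L * (n + 2) ≤ m := not_lt.mp hcon
    have h2 : (1 - 1 / (2 : ℝ) ^ k) ^ m ≤ (1 - 1 / (2 : ℝ) ^ k) ^ (L * (n + 2)) :=
      pow_le_pow_of_le_one hρ0 hρ1.le hge
    have h3 : (1 - 1 / (2 : ℝ) ^ k) ^ (L * (n + 2)) ≤ (1 / 2) ^ (n + 2) := by
      rw [pow_mul]
      exact pow_le_pow_left₀ (pow_nonneg hρ0 _) hL.le _
    have h4 : (2 : ℝ) ^ n * (1 / 2) ^ (n + 2) = 1 / 4 := by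
      rw [pow_add, ← mul_assoc, ← mul_pow]
      norm_num
    have h5 : (2 : ℝ) ^ n * (1 - 1 / (2 : ℝ) ^ k) ^ m ≤ (2 : ℝ) ^ n * (1 / 2) ^ (n + 2) :=
      mul_le_mul_of_nonneg_left (h2.trans h3) (by positivity)
    linarith
  have hfl := Nat.lt_floor_add_one ((r n - 1) * (n : ℝ))
  rw [← hm] at hfl
  have hn2 : (2 : ℝ) ≤ n := by exact_mod_cast (by omega : 2 ≤ n)
  have hlt' : (m : ℝ) + 1 ≤ (L : ℝ) * ((n : ℝ) + 2) := by
    have : m + 1 ≤ L * (n + 2) := hlt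
    exact_mod_cast this
  have hL0 : (0 : ℝ) ≤ L := by positivity
  by_contra hcon
  have hbig : (2 : ℝ) * L + 2 < r n := not_le.mp hcon
  have : (2 * (L : ℝ) + 1) * n < (r n - 1) * n :=
    mul_lt_mul_of_pos_right (by linarith) (by linarith)
  nlinarith

/-- Threshold sequences are eventually above any negative number. -/
lemma eventually_gt {k : ℕ} {r : ℕ → ℝ} (h : IsThresholdSeq k r) {ε : ℝ} (hε : 0 < ε) :
    ∀ᶠ n : ℕ in atTop, -ε < r n := by
  have hE2 : ∀ᶠ n : ℕ in atTop, satProb k n ⌊(r n + ε) * (n : ℝ)⌋₊ < 1 / 2 :=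
    (h ε hε).2.eventually (gt_mem_nhds (by norm_num))
  filter_upwards [hE2, eventually_ge_atTop k] with n h1 hn
  by_contra hcon
  have h2 : r n + ε ≤ 0 := by linarith [not_lt.mp hcon]
  have h3 : (r n + ε) * (n : ℝ) ≤ 0 := mul_nonpos_of_nonpos_of_nonneg h2 (by positivity)
  rw [Nat.floor_of_nonpos h3, satProb_zero k n hn] at h1
  norm_num at h1

/-- Upper half: `r (n + 1)` does not exceed `r n` by a fixed amount. -/
theorem upper_step {k : ℕ} {r : ℕ → ℝ} (h : IsThresholdSeq (k + 1) r) {η : ℝ} (hη : 0 < η) :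
    ∀ᶠ n : ℕ in atTop, r (n + 1) ≤ r n + η := by
  set ε := η / 4 with hε
  have hε0 : 0 < ε := by positivity
  obtain ⟨C, hC0, hC⟩ := exists_bound h
  set J := ⌈4 * C * ((k : ℝ) + 1)⌉₊ with hJ
  have hJ1 : 4 * C * ((k : ℝ) + 1) ≤ J := Nat.le_ceil _
  have hF1 : ∀ᶠ n : ℕ in atTop,
      (3 / 4 : ℝ) < satProb (k + 1) (n + 1) ⌊(r (n + 1) - ε) * ((n + 1 : ℕ) : ℝ)⌋₊ :=
    ((tendsto_add_atTop_iff_nat 1).mpr (h ε hε0).1).eventually (lt_mem_nhds (by norm_num))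
  have hF2 : ∀ᶠ n : ℕ in atTop, satProb (k + 1) n ⌊(r n + ε) * (n : ℝ)⌋₊ < 1 / 4 :=
    (h ε hε0).2.eventually (gt_mem_nhds (by norm_num))
  have hF3 : ∀ᶠ n : ℕ in atTop, r (n + 1) ≤ C := (tendsto_add_atTop_nat 1).eventually hC
  have hF4 := eventually_gt h hε0
  have hF5 : ∀ᶠ n : ℕ in atTop, ((J : ℝ) + 1) ≤ 2 * ε * n := by
    have : Tendsto (fun n : ℕ => 2 * ε * (n : ℝ)) atTop atTop :=
      Tendsto.const_mul_atTop (by positivity) tendsto_natCast_atTop_atTop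
    exact this.eventually (eventually_ge_atTop _)
  filter_upwards [hF1, hF2, hF3, hF4, hF5, eventually_ge_atTop (k + 1)] with n h1 h2 h3 h4 h5 hn
  by_contra hcon
  have hbig : r n + η < r (n + 1) := not_le.mp hcon
  have hη4 : η = 4 * ε := by rw [hε]; ring
  rw [hη4] at hbig
  push_cast at h1
  set x := (r (n + 1) - ε) * ((n : ℝ) + 1) with hx
  set m := ⌊x⌋₊ with hm
  have hn0 : (0 : ℝ) ≤ n := by positivity
  have hpos : 0 < r (n + 1) - ε := by linarith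
  have hx0 : 0 ≤ x := by rw [hx]; positivity
  have hm1 : (m : ℝ) ≤ x := Nat.floor_le hx0
  have hm2 : x < m + 1 := Nat.lt_floor_add_one x
  have hcmp := upper_cmp k n m J hn
  -- the error term
  have hterm : ((m : ℝ) * ((k + 1 : ℝ) / (n + 1))) / (J + 1) ≤ 1 / 4 := by
    have hn1 : (0 : ℝ) < (n : ℝ) + 1 := by positivity
    have e1 : (m : ℝ) * ((k + 1 : ℝ) / (n + 1)) ≤ C * ((k : ℝ) + 1) := by
      have h6 : (m : ℝ) ≤ C * ((n : ℝ) + 1) := by
        refine hm1.trans ?_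
        rw [hx]
        exact mul_le_mul_of_nonneg_right (by linarith) hn1.le
      rw [← mul_div_assoc, div_le_iff₀ hn1]
      have h7 : (0 : ℝ) ≤ (k : ℝ) + 1 := by positivity
      nlinarith
    rw [div_le_iff₀ (by positivity)]
    nlinarith [mul_pos hC0 (by positivity : (0 : ℝ) < (k : ℝ) + 1)]
  -- the shifted floor
  have hlow : (r n + ε) * (n : ℝ) + 2 * ε * n ≤ x := by
    rw [hx]
    have h6 : (r n + 3 * ε) * ((n : ℝ) + 1) ≤ (r (n + 1) - ε) * ((n : ℝ) + 1) :=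
      mul_le_mul_of_nonneg_right (by linarith) (by positivity)
    nlinarith
  have hnn : 0 ≤ (r n + ε) * (n : ℝ) :=
    mul_nonneg (by linarith) hn0
  have hJm : (J : ℝ) ≤ m := by linarith
  have hJm' : J ≤ m := by exact_mod_cast hJm
  have hfl : ⌊(r n + ε) * (n : ℝ)⌋₊ ≤ m - J := by
    apply Nat.floor_le_of_le
    rw [Nat.cast_sub hJm']
    linarith
  have hanti := satProb_anti (k + 1) n (by omega : k + 1 ≤ n) hfl
  linarith

/-- Lower half: `r (n + 1)` does not fall below `r n` by a fixed amount. -/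
theorem lower_step {k : ℕ} (hk : 1 ≤ k) {r : ℕ → ℝ} (h : IsThresholdSeq (k + 1) r) {η : ℝ}
    (hη : 0 < η) : ∀ᶠ n : ℕ in atTop, r n ≤ r (n + 1) + η := by
  set ε := η / 4 with hε
  have hε0 : 0 < ε := by positivity
  obtain ⟨C, hC0, hC⟩ := exists_bound h
  set J := ⌈(C + ε) * ((k : ℝ) + 1)⌉₊ with hJ
  have hJ1 : (C + ε) * ((k : ℝ) + 1) ≤ J := Nat.le_ceil _
  set δ : ℝ := 1 / (8 * ((J : ℝ) + 1)) with hδ
  have hδ0 : 0 < δ := by positivity
  set E := ⌈2 / δ ^ 2⌉₊ with hE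
  have hE1 : 2 ≤ δ ^ 2 * E := by
    have : 2 / δ ^ 2 ≤ E := Nat.le_ceil _
    rw [div_le_iff₀ (by positivity)] at this
    linarith
  have hF1 : ∀ᶠ n : ℕ in atTop,
      satProb (k + 1) (n + 1) ⌊(r (n + 1) + ε) * ((n + 1 : ℕ) : ℝ)⌋₊ < 1 / 8 :=
    ((tendsto_add_atTop_iff_nat 1).mpr (h ε hε0).2).eventually (gt_mem_nhds (by norm_num))
  have hF2 : ∀ᶠ n : ℕ in atTop, (7 / 8 : ℝ) < satProb (k + 1) n ⌊(r n - ε) * (n : ℝ)⌋₊ :=
    (h ε hε0).1.eventually (lt_mem_nhds (by norm_num))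
  have hF3 : ∀ᶠ n : ℕ in atTop, r (n + 1) ≤ C := (tendsto_add_atTop_nat 1).eventually hC
  have hF4 : ∀ᶠ n : ℕ in atTop, -ε < r (n + 1) :=
    (tendsto_add_atTop_nat 1).eventually (eventually_gt h hε0)
  have hF5 : ∀ᶠ n : ℕ in atTop, C + ε + ((J * E : ℕ) : ℝ) ≤ 2 * ε * n := by
    have : Tendsto (fun n : ℕ => 2 * ε * (n : ℝ)) atTop atTop :=
      Tendsto.const_mul_atTop (by positivity) tendsto_natCast_atTop_atTop
    exact this.eventually (eventually_ge_atTop _)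
  have hF6 : ∀ᶠ n : ℕ in atTop, (k : ℝ) ≤ n * δ := by
    have : Tendsto (fun n : ℕ => (n : ℝ) * δ) atTop atTop :=
      Tendsto.atTop_mul_const hδ0 tendsto_natCast_atTop_atTop
    exact this.eventually (eventually_ge_atTop _)
  filter_upwards [hF1, hF2, hF3, hF4, hF5, hF6, eventually_ge_atTop (k + 1)]
    with n h1 h2 h3 h4 h5 h6 hn
  by_contra hcon
  have hbig : r (n + 1) + η < r n := not_le.mp hcon
  have hη4 : η = 4 * ε := by rw [hε]; ring
  rw [hη4] at hbig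
  push_cast at h1
  set y := (r (n + 1) + ε) * ((n : ℝ) + 1) with hy
  set m := ⌊y⌋₊ with hm
  have hn0 : (0 : ℝ) ≤ n := by positivity
  have hn1 : (0 : ℝ) < (n : ℝ) + 1 := by positivity
  have hpos : 0 < r (n + 1) + ε := by linarith
  have hy0 : 0 ≤ y := by rw [hy]; positivity
  have hm1 : (m : ℝ) ≤ y := Nat.floor_le hy0
  -- the shifted floor
  have hfl : m + J * E ≤ ⌊(r n - ε) * (n : ℝ)⌋₊ := by
    apply Nat.le_floor
    push_cast
    push_cast at h5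
    have h7 : (r (n + 1) + 3 * ε) * (n : ℝ) ≤ (r n - ε) * (n : ℝ) :=
      mul_le_mul_of_nonneg_right (by linarith) hn0
    have h8 : y = (r (n + 1) + ε) * (n : ℝ) + (r (n + 1) + ε) := by rw [hy]; ring
    nlinarith
  have hanti := satProb_anti (k + 1) n (by omega : k + 1 ≤ n) hfl
  -- the coefficient
  set θ := 1 - ((m : ℝ) * ((k + 1 : ℝ) / (2 * (n + 1)))) / (J + 1) with hθ
  have hθ1 : (1 / 2 : ℝ) ≤ θ := by
    have e1 : (m : ℝ) * ((k + 1 : ℝ) / (2 * (n + 1))) ≤ (C + ε) * ((k : ℝ) + 1) / 2 := by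
      have h6' : (m : ℝ) ≤ (C + ε) * ((n : ℝ) + 1) := by
        refine hm1.trans ?_
        rw [hy]
        exact mul_le_mul_of_nonneg_right (by linarith) hn1.le
      have e2 : (m : ℝ) * ((k + 1 : ℝ) / (2 * (n + 1))) =
          (m : ℝ) * ((k : ℝ) + 1) / (2 * ((n : ℝ) + 1)) := by
        rw [mul_div_assoc]
      rw [e2, div_le_iff₀ (by positivity)]
      have h7 : (0 : ℝ) ≤ (k : ℝ) + 1 := by positivity
      nlinarith
    have e3 : ((m : ℝ) * ((k + 1 : ℝ) / (2 * (n + 1)))) / (J + 1) ≤ 1 / 2 := by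
      rw [div_le_iff₀ (by positivity)]
      nlinarith
    rw [hθ]
    linarith
  have hH := fun S => pointwise_H (E := E) (δ := δ) hk (by omega : k < n) hδ0 hE1 h6 S
  have hcmp := lower_cmp k n m J E δ (by omega) hH (by rw [← hθ]; linarith)
  rw [← hθ] at hcmp
  have hJδ : (J : ℝ) * δ ≤ 1 / 8 := by
    rw [hδ, mul_one_div, div_le_iff₀ (by positivity)]
    nlinarith
  have hb : 3 / 4 ≤ satProb (k + 1) n (m + J * E) - J * δ := by linarith
  have : (1 / 2 : ℝ) * (3 / 4) ≤ θ * (satProb (k + 1) n (m + J * E) - J * δ) :=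
    mul_le_mul hθ1 hb (by norm_num) (by linarith)
  linarith

/-- Threshold sequences of random `k`-SAT vary slowly. -/
theorem threshold_slowly_varying {k : ℕ} (hk : 2 ≤ k) {r : ℕ → ℝ} (h : IsThresholdSeq k r) :
    Tendsto (fun n : ℕ => r (n + 1) - r n) atTop (𝓝 0) := by
  obtain ⟨k', rfl⟩ : ∃ k', k = k' + 1 := ⟨k - 1, by omega⟩
  have hk' : 1 ≤ k' := by omega
  rw [tendsto_order]
  constructor
  · intro a ha
    have := lower_step hk' h (by linarith : 0 < -a / 2)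
    filter_upwards [this] with n hn
    linarith
  · intro a ha
    have := upper_step h (by linarith : 0 < a / 2)
    filter_upwards [this] with n hn
    linarith

end Vale.Agent.Lib.P170
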