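import Vale.Agent.Lib.P170.Main

namespace Vale.Agent.Lib.P170

open Finset

set_option linter.unusedSectionVars false
set_option linter.unusedVariables false

section lazy

variable {X : Type} [DecidableEq X] {Ω Ω₁ Ω₂ : Type} [Fintype Ω] [Fintype Ω₁] [Fintype Ω₂]
  [Nonempty Ω] [Nonempty Ω₁] [Nonempty Ω₂]
variable (A : Ω → Finset X) (A₁ : Ω₁ → Finset X) (A₂ : Ω₂ → Finset X)

/-- Lazy averaging over one family. -/
noncomputable def Lazy1 (a : ℝ) : Module.End ℝ (Fn X) := (1 - a) • 1 + a • Avg A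

/-- Lazy averaging over two families. -/
noncomputable def Lazy2 (b₁ b₂ : ℝ) : Module.End ℝ (Fn X) :=
  (1 - b₁ - b₂) • 1 + b₁ • Avg A₁ + b₂ • Avg A₂

lemma Lazy1_apply (a : ℝ) (g : Fn X) (S : Finset X) :
    Lazy1 A a g S = (1 - a) * g S + a * Avg A g S := by
  simp [Lazy1]

lemma Lazy2_apply (b₁ b₂ : ℝ) (g : Fn X) (S : Finset X) :
    Lazy2 A₁ A₂ b₁ b₂ g S = (1 - b₁ - b₂) * g S + b₁ * Avg A₁ g S + b₂ * Avg A₂ g S := by
  simp [Lazy2]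

lemma Lazy1_orderPres {a : ℝ} (h0 : 0 ≤ a) (h1 : a ≤ 1) : OrderPres (Lazy1 A a) :=
  (OrderPres.one.smul (by linarith)).add ((Avg_orderPres A).smul h0)

lemma Lazy2_orderPres {b₁ b₂ : ℝ} (h₁ : 0 ≤ b₁) (h₂ : 0 ≤ b₂) (h : b₁ + b₂ ≤ 1) :
    OrderPres (Lazy2 A₁ A₂ b₁ b₂) :=
  ((OrderPres.one.smul (by linarith)).add ((Avg_orderPres A₁).smul h₁)).add
    ((Avg_orderPres A₂).smul h₂)

lemma Lazy1_const (a c : ℝ) : Lazy1 A a (fun _ => c) = fun _ => c := by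
  funext S
  rw [Lazy1_apply, Avg_const]
  ring

lemma Lazy2_const (b₁ b₂ c : ℝ) : Lazy2 A₁ A₂ b₁ b₂ (fun _ => c) = fun _ => c := by
  funext S
  rw [Lazy2_apply, Avg_const, Avg_const]
  ring

lemma Lazy_comm (a b₁ b₂ : ℝ) : Commute (Lazy1 A a) (Lazy2 A₁ A₂ b₁ b₂) := by
  unfold Lazy1 Lazy2
  apply Commute.add_left
  · exact (Commute.one_left _).smul_left _
  · apply Commute.smul_left
    apply Commute.add_right
    · apply Commute.add_right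
      · exact (Commute.one_right _).smul_right _
      · exact (Avg_comm A A₁).smul_right _
    · exact (Avg_comm A A₂).smul_right _

lemma Lazy1_pow_const {a : ℝ} (N : ℕ) (c : ℝ) :
    ((Lazy1 A a) ^ N) (fun _ => c) = fun _ => c := by
  induction N with
  | zero => rfl
  | succ N ih =>
    rw [pow_succ]
    show ((Lazy1 A a) ^ N) (Lazy1 A a (fun _ => c)) = _
    rw [Lazy1_const, ih]

/-- The hybrid argument. -/
theorem hybrid {a b₁ b₂ e : ℝ} (ha0 : 0 ≤ a) (ha1 : a ≤ 1) (hb₁ : 0 ≤ b₁) (hb₂ : 0 ≤ b₂)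
    (hb : b₁ + b₂ ≤ 1)
    (H : ∀ S : Finset X, Lazy2 A₁ A₂ b₁ b₂ (g0 : Fn X) S - e ≤ Lazy1 A a (g0 : Fn X) S)
    (N : ℕ) (S : Finset X) :
    ((Lazy2 A₁ A₂ b₁ b₂) ^ N) (g0 : Fn X) S - N * e ≤ ((Lazy1 A a) ^ N) (g0 : Fn X) S := by
  induction N generalizing S with
  | zero => simp
  | succ N ih =>
    -- first step: replace the last operator
    have h1 : (fun S => Lazy2 A₁ A₂ b₁ b₂ (g0 : Fn X) S - e) ≤ Lazy1 A a (g0 : Fn X) :=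
      fun S => H S
    have h2 := (OrderPres.pow (Lazy1_orderPres A ha0 ha1) N) _ _ h1 S
    have e1 : (fun S => Lazy2 A₁ A₂ b₁ b₂ (g0 : Fn X) S - e)
        = Lazy2 A₁ A₂ b₁ b₂ (g0 : Fn X) - (fun _ => e) := rfl
    rw [e1, map_sub, Lazy1_pow_const] at h2
    simp only [Pi.sub_apply] at h2
    -- commute
    have hc : Commute ((Lazy1 A a) ^ N) (Lazy2 A₁ A₂ b₁ b₂) := (Lazy_comm A A₁ A₂ a b₁ b₂).pow_left N
    have e2 : ((Lazy1 A a) ^ N) (Lazy2 A₁ A₂ b₁ b₂ (g0 : Fn X))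
        = Lazy2 A₁ A₂ b₁ b₂ (((Lazy1 A a) ^ N) (g0 : Fn X)) :=
      congrArg (fun f : Module.End ℝ (Fn X) => f g0) hc.eq
    rw [e2] at h2
    -- induction hypothesis
    have h3 : (fun S => ((Lazy2 A₁ A₂ b₁ b₂) ^ N) (g0 : Fn X) S - N * e)
        ≤ ((Lazy1 A a) ^ N) (g0 : Fn X) := fun S => ih S
    have h4 := (Lazy2_orderPres A₁ A₂ hb₁ hb₂ hb) _ _ h3 S
    have e3 : (fun S => ((Lazy2 A₁ A₂ b₁ b₂) ^ N) (g0 : Fn X) S - N * e)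
        = ((Lazy2 A₁ A₂ b₁ b₂) ^ N) (g0 : Fn X) - (fun _ => (N : ℝ) * e) := rfl
    rw [e3, map_sub, Lazy2_const] at h4
    simp only [Pi.sub_apply] at h4
    have e4 : ((Lazy2 A₁ A₂ b₁ b₂) ^ (N + 1)) (g0 : Fn X)
        = Lazy2 A₁ A₂ b₁ b₂ (((Lazy2 A₁ A₂ b₁ b₂) ^ N) (g0 : Fn X)) := by
      rw [pow_succ']; rfl
    have e5 : ((Lazy1 A a) ^ (N + 1)) (g0 : Fn X)
        = ((Lazy1 A a) ^ N) (Lazy1 A a (g0 : Fn X)) := by
      rw [pow_succ]; rfl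
    rw [e4, e5]
    push_cast
    linarith

/-- The Chebyshev potential. -/
noncomputable def phi (p μ t : ℝ) (j r : ℕ) : ℝ :=
  (((j : ℝ) + r * p - μ) ^ 2 + r * (p * (1 - p))) / t ^ 2

lemma phi_succ (p μ t : ℝ) (j r : ℕ) :
    phi p μ t j (r + 1) = (1 - p) * phi p μ t j r + p * phi p μ t (j + 1) r := by
  unfold phi
  push_cast
  ring

lemma phi_nonneg {p μ t : ℝ} (h0 : 0 ≤ p) (h1 : p ≤ 1) (j r : ℕ) : 0 ≤ phi p μ t j r := by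
  unfold phi
  have : 0 ≤ p * (1 - p) := mul_nonneg h0 (by linarith)
  positivity

lemma phi_zero_ge_one {p μ t : ℝ} (ht : 0 < t) {j : ℕ} (h : t ≤ |(j : ℝ) - μ|) :
    1 ≤ phi p μ t j 0 := by
  unfold phi
  simp only [Nat.cast_zero, zero_mul, add_zero]
  rw [one_le_div (by positivity)]
  have := sq_le_sq' (by linarith [abs_nonneg ((j : ℝ) - μ)]) h
  rwa [sq_abs] at this

/-- Upper Chebyshev estimate in operator form. -/
lemma lazy1_le_aux {a : ℝ} (h0 : 0 ≤ a) (h1 : a ≤ 1) {μ t : ℝ} (ht : 0 < t) {m : ℕ}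
    (hm : (m : ℝ) + t ≤ μ) (r j : ℕ) (S : Finset X) :
    ((Lazy1 A a) ^ r) (((Avg A) ^ j) (g0 : Fn X)) S
      ≤ ((Avg A) ^ m) (g0 : Fn X) S + phi a μ t j r := by
  induction r generalizing j with
  | zero =>
    simp only [pow_zero, Module.End.one_apply]
    by_cases hj : m ≤ j
    · have := T_pow_anti A hj S
      have h3 := phi_nonneg (μ := μ) (t := t) h0 h1 j 0
      linarith
    · have hj' : (j : ℝ) + 1 ≤ m := by
        have : j + 1 ≤ m := by omega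
        exact_mod_cast this
      have h2 : 1 ≤ phi a μ t j 0 := by
        apply phi_zero_ge_one ht
        rw [abs_of_nonpos (by linarith)]
        linarith
      have h3 := (T_pow_unit A j S).2
      have h4 := (T_pow_unit A m S).1
      linarith
  | succ r ih =>
    have e : ((Lazy1 A a) ^ (r + 1)) (((Avg A) ^ j) (g0 : Fn X))
        = (1 - a) • ((Lazy1 A a) ^ r) (((Avg A) ^ j) g0)
          + a • ((Lazy1 A a) ^ r) (((Avg A) ^ (j + 1)) g0) := by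
      rw [pow_succ]
      show ((Lazy1 A a) ^ r) ((Lazy1 A a) (((Avg A) ^ j) g0)) = _
      have e2 : (Lazy1 A a) (((Avg A) ^ j) (g0 : Fn X))
          = (1 - a) • (((Avg A) ^ j) g0) + a • (((Avg A) ^ (j + 1)) g0) := by
        simp [Lazy1, pow_succ']
      rw [e2, map_add, map_smul, map_smul]
    rw [e]
    simp only [Pi.add_apply, Pi.smul_apply, smul_eq_mul]
    have i1 := ih j
    have i2 := ih (j + 1)
    rw [phi_succ]
    have a1 := mul_le_mul_of_nonneg_left i1 (by linarith : 0 ≤ 1 - a)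
    have a2 := mul_le_mul_of_nonneg_left i2 h0
    nlinarith

/-- Upper Chebyshev estimate. -/
theorem lazy1_le {a : ℝ} (h0 : 0 ≤ a) (h1 : a ≤ 1) {m N : ℕ} (hm : (m : ℝ) < N * a)
    (S : Finset X) :
    ((Lazy1 A a) ^ N) (g0 : Fn X) S
      ≤ ((Avg A) ^ m) (g0 : Fn X) S + (N * a) / (N * a - m) ^ 2 := by
  have ht : 0 < (N : ℝ) * a - m := by linarith
  have h := lazy1_le_aux A h0 h1 (μ := N * a) ht (m := m) (by linarith) N 0 S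
  simp only [pow_zero, Module.End.one_apply] at h
  refine le_trans h ?_
  have : phi a (N * a) (N * a - m) 0 N ≤ (N * a) / (N * a - m) ^ 2 := by
    unfold phi
    simp only [Nat.cast_zero, zero_add]
    apply div_le_div_of_nonneg_right _ (by positivity)
    have : 0 ≤ (N : ℝ) := by positivity
    nlinarith [mul_nonneg this h0, mul_nonneg (mul_nonneg this h0) h0]
  linarith

/-- Antitonicity for the two-family products. -/
lemma prod_anti {j₁ j₂ J₁ J₂ : ℕ} (h₁ : j₁ ≤ J₁) (h₂ : j₂ ≤ J₂) (S : Finset X) :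
    ((Avg A₁) ^ J₁) (((Avg A₂) ^ J₂) (g0 : Fn X)) S
      ≤ ((Avg A₁) ^ j₁) (((Avg A₂) ^ j₂) (g0 : Fn X)) S := by
  have hc : ((Avg A₁) ^ J₁) (((Avg A₂) ^ J₂) (g0 : Fn X))
      = ((Avg A₂) ^ J₂) (((Avg A₁) ^ J₁) (g0 : Fn X)) :=
    congrArg (fun f : Module.End ℝ (Fn X) => f g0) ((Avg_comm A₁ A₂).pow_pow J₁ J₂).eq
  have hc' : ((Avg A₁) ^ j₁) (((Avg A₂) ^ J₂) (g0 : Fn X))
      = ((Avg A₂) ^ J₂) (((Avg A₁) ^ j₁) (g0 : Fn X)) :=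
    congrArg (fun f : Module.End ℝ (Fn X) => f g0) ((Avg_comm A₁ A₂).pow_pow j₁ J₂).eq
  have s1 := (OrderPres.pow (Avg_orderPres A₂) J₂) _ _ (fun S => T_pow_anti A₁ h₁ S) S
  have s2 := (OrderPres.pow (Avg_orderPres A₁) j₁) _ _ (fun S => T_pow_anti A₂ h₂ S) S
  rw [hc]
  rw [hc'] at s2
  exact s1.trans s2

lemma prod_unit (j₁ j₂ : ℕ) (S : Finset X) :
    0 ≤ ((Avg A₁) ^ j₁) (((Avg A₂) ^ j₂) (g0 : Fn X)) S := by
  have h0 : (fun _ => (0 : ℝ)) ≤ ((Avg A₂) ^ j₂) (g0 : Fn X) := fun S => (T_pow_unit A₂ j₂ S).1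
  have h := (OrderPres.pow (Avg_orderPres A₁) j₁) _ _ h0 S
  rwa [Avg_pow_const] at h

/-- Lower Chebyshev estimate in operator form. -/
lemma lazy2_ge_aux {b₁ b₂ : ℝ} (h₁ : 0 ≤ b₁) (h₂ : 0 ≤ b₂) (hb : b₁ + b₂ ≤ 1)
    {μ₁ μ₂ t₁ t₂ : ℝ} (ht₁ : 0 < t₁) (ht₂ : 0 < t₂) {J₁ J₂ : ℕ}
    (hJ₁ : μ₁ + t₁ ≤ J₁) (hJ₂ : μ₂ + t₂ ≤ J₂) (r j₁ j₂ : ℕ) (S : Finset X) :
    (1 - phi b₁ μ₁ t₁ j₁ r - phi b₂ μ₂ t₂ j₂ r) *
        ((Avg A₁) ^ J₁) (((Avg A₂) ^ J₂) (g0 : Fn X)) S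
      ≤ ((Lazy2 A₁ A₂ b₁ b₂) ^ r) (((Avg A₁) ^ j₁) (((Avg A₂) ^ j₂) (g0 : Fn X))) S := by
  have hb₁1 : b₁ ≤ 1 := by linarith
  have hb₂1 : b₂ ≤ 1 := by linarith
  have hv := prod_unit A₁ A₂ J₁ J₂ S
  induction r generalizing j₁ j₂ with
  | zero =>
    simp only [pow_zero, Module.End.one_apply]
    have n1 := phi_nonneg (μ := μ₁) (t := t₁) h₁ hb₁1 j₁ 0
    have n2 := phi_nonneg (μ := μ₂) (t := t₂) h₂ hb₂1 j₂ 0
    by_cases hc₁ : j₁ ≤ J₁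
    · by_cases hc₂ : j₂ ≤ J₂
      · have := prod_anti A₁ A₂ hc₁ hc₂ S
        nlinarith
      · have hj' : (J₂ : ℝ) + 1 ≤ j₂ := by
          have : J₂ + 1 ≤ j₂ := by omega
          exact_mod_cast this
        have h2 : 1 ≤ phi b₂ μ₂ t₂ j₂ 0 := by
          apply phi_zero_ge_one ht₂
          rw [abs_of_nonneg (by linarith)]
          linarith
        have h3 := prod_unit A₁ A₂ j₁ j₂ S
        nlinarith
    · have hj' : (J₁ : ℝ) + 1 ≤ j₁ := by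
        have : J₁ + 1 ≤ j₁ := by omega
        exact_mod_cast this
      have h2 : 1 ≤ phi b₁ μ₁ t₁ j₁ 0 := by
        apply phi_zero_ge_one ht₁
        rw [abs_of_nonneg (by linarith)]
        linarith
      have h3 := prod_unit A₁ A₂ j₁ j₂ S
      nlinarith
  | succ r ih =>
    have hc1 : ((Avg A₂) ^ j₂) (Avg A₁ (((Avg A₁) ^ j₁) (g0 : Fn X)))
        = Avg A₁ (((Avg A₂) ^ j₂) (((Avg A₁) ^ j₁) (g0 : Fn X))) :=
      congrArg (fun f : Module.End ℝ (Fn X) => f (((Avg A₁) ^ j₁) (g0 : Fn X)))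
        ((Avg_comm A₂ A₁).pow_left j₂).eq
    have hswap : ∀ a b : ℕ, ((Avg A₁) ^ a) (((Avg A₂) ^ b) (g0 : Fn X))
        = ((Avg A₂) ^ b) (((Avg A₁) ^ a) (g0 : Fn X)) := fun a b =>
      congrArg (fun f : Module.End ℝ (Fn X) => f g0) ((Avg_comm A₁ A₂).pow_pow a b).eq
    have e2 : (Lazy2 A₁ A₂ b₁ b₂) (((Avg A₁) ^ j₁) (((Avg A₂) ^ j₂) (g0 : Fn X)))
        = (1 - b₁ - b₂) • (((Avg A₁) ^ j₁) (((Avg A₂) ^ j₂) g0))
          + b₁ • (((Avg A₁) ^ (j₁ + 1)) (((Avg A₂) ^ j₂) g0))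
          + b₂ • (((Avg A₁) ^ j₁) (((Avg A₂) ^ (j₂ + 1)) g0)) := by
      have x1 : Avg A₁ (((Avg A₁) ^ j₁) (((Avg A₂) ^ j₂) (g0 : Fn X)))
          = ((Avg A₁) ^ (j₁ + 1)) (((Avg A₂) ^ j₂) g0) := by
        rw [pow_succ']; rfl
      have x2 : Avg A₂ (((Avg A₁) ^ j₁) (((Avg A₂) ^ j₂) (g0 : Fn X)))
          = ((Avg A₁) ^ j₁) (((Avg A₂) ^ (j₂ + 1)) g0) := by
        rw [hswap j₁ (j₂ + 1), hswap j₁ j₂, pow_succ']; rfl
      simp only [Lazy2, LinearMap.add_apply, LinearMap.smul_apply, Module.End.one_apply]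
      rw [x1, x2]
    have e : ((Lazy2 A₁ A₂ b₁ b₂) ^ (r + 1)) (((Avg A₁) ^ j₁) (((Avg A₂) ^ j₂) (g0 : Fn X)))
        = (1 - b₁ - b₂) • ((Lazy2 A₁ A₂ b₁ b₂) ^ r) (((Avg A₁) ^ j₁) (((Avg A₂) ^ j₂) g0))
          + b₁ • ((Lazy2 A₁ A₂ b₁ b₂) ^ r) (((Avg A₁) ^ (j₁ + 1)) (((Avg A₂) ^ j₂) g0))
          + b₂ • ((Lazy2 A₁ A₂ b₁ b₂) ^ r) (((Avg A₁) ^ j₁) (((Avg A₂) ^ (j₂ + 1)) g0)) := by
      rw [pow_succ]
      show ((Lazy2 A₁ A₂ b₁ b₂) ^ r) ((Lazy2 A₁ A₂ b₁ b₂) _) = _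
      rw [e2, map_add, map_add, map_smul, map_smul, map_smul]
    rw [e]
    simp only [Pi.add_apply, Pi.smul_apply, smul_eq_mul]
    have i1 := ih j₁ j₂
    have i2 := ih (j₁ + 1) j₂
    have i3 := ih j₁ (j₂ + 1)
    rw [phi_succ, phi_succ]
    have a1 := mul_le_mul_of_nonneg_left i1 (by linarith : 0 ≤ 1 - b₁ - b₂)
    have a2 := mul_le_mul_of_nonneg_left i2 h₁
    have a3 := mul_le_mul_of_nonneg_left i3 h₂
    nlinarith

/-- Lower Chebyshev estimate. -/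
theorem lazy2_ge {b₁ b₂ : ℝ} (h₁ : 0 ≤ b₁) (h₂ : 0 ≤ b₂) (hb : b₁ + b₂ ≤ 1)
    {t₁ t₂ : ℝ} (ht₁ : 0 < t₁) (ht₂ : 0 < t₂) {J₁ J₂ N : ℕ}
    (hJ₁ : N * b₁ + t₁ ≤ J₁) (hJ₂ : N * b₂ + t₂ ≤ J₂) (S : Finset X) :
    (1 - (N * b₁) / t₁ ^ 2 - (N * b₂) / t₂ ^ 2) *
        ((Avg A₁) ^ J₁) (((Avg A₂) ^ J₂) (g0 : Fn X)) S
      ≤ ((Lazy2 A₁ A₂ b₁ b₂) ^ N) (g0 : Fn X) S := by
  have hv := prod_unit A₁ A₂ J₁ J₂ S
  have h := lazy2_ge_aux A₁ A₂ h₁ h₂ hb ht₁ ht₂ hJ₁ hJ₂ N 0 0 S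
  simp only [pow_zero, Module.End.one_apply] at h
  refine le_trans ?_ h
  apply mul_le_mul_of_nonneg_right _ hv
  have key : ∀ (b t : ℝ), 0 ≤ b → b ≤ 1 → 0 < t →
      phi b (N * b) t 0 N ≤ (N * b) / t ^ 2 := by
    intro b t h0 h1 ht
    unfold phi
    simp only [Nat.cast_zero, zero_add]
    apply div_le_div_of_nonneg_right _ (by positivity)
    have : 0 ≤ (N : ℝ) := by positivity
    nlinarith [mul_nonneg this h0, mul_nonneg (mul_nonneg this h0) h0]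
  have k1 := key b₁ t₁ h₁ (by linarith) ht₁
  have k2 := key b₂ t₂ h₂ (by linarith) ht₂
  linarith

end lazy

end Vale.Agent.Lib.P170
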