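import Vale.Agent.Lib.P170.MixNum

namespace Vale.Agent.Lib.P170

open Finset

set_option linter.unusedSectionVars false
set_option linter.unusedVariables false

section concrete

variable {k n₁ n₂ : ℕ}

/-- Restriction to the first block of variables. -/
def resL (σ : Fin (n₁ + n₂) → Bool) : Fin n₁ → Bool := fun i => σ (Fin.castAdd n₂ i)

/-- Restriction to the second block of variables. -/
def resR (σ : Fin (n₁ + n₂) → Bool) : Fin n₂ → Bool := fun i => σ (Fin.natAdd n₁ i)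

open Classical in
/-- Assignments whose first block satisfies the clause. -/
noncomputable def solL (C : Clause k n₁) : Finset (Fin (n₁ + n₂) → Bool) :=
  Finset.univ.filter (fun σ => Satisfies (resL σ) C)

open Classical in
/-- Assignments whose second block satisfies the clause. -/
noncomputable def solR (C : Clause k n₂) : Finset (Fin (n₁ + n₂) → Bool) :=
  Finset.univ.filter (fun σ => Satisfies (resR σ) C)

lemma mem_solL {C : Clause k n₁} {σ : Fin (n₁ + n₂) → Bool} :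
    σ ∈ solL C ↔ Satisfies (resL σ) C := by
  simp [solL]

lemma mem_solR {C : Clause k n₂} {σ : Fin (n₁ + n₂) → Bool} :
    σ ∈ solR C ↔ Satisfies (resR σ) C := by
  simp [solR]

lemma g0_eq_ite {X : Type} [DecidableEq X] (S : Finset X) :
    (g0 : Fn X) S = if S.Nonempty then 1 else 0 := rfl

lemma g0_inter_solL (S : Finset (Fin (n₁ + n₂) → Bool)) (C : Clause k n₁) :
    (g0 : Fn _) (S ∩ solL C) = (g0 : Fn _) (S.image resL ∩ sol C) := by
  rw [g0_eq_ite, g0_eq_ite]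
  congr 1
  apply propext
  constructor
  · rintro ⟨σ, hσ⟩
    rw [Finset.mem_inter] at hσ
    exact ⟨resL σ, Finset.mem_inter.mpr ⟨Finset.mem_image_of_mem _ hσ.1, mem_sol.mpr (mem_solL.mp hσ.2)⟩⟩
  · rintro ⟨τ, hτ⟩
    rw [Finset.mem_inter, Finset.mem_image] at hτ
    obtain ⟨⟨σ, hσ, rfl⟩, h2⟩ := hτ
    exact ⟨σ, Finset.mem_inter.mpr ⟨hσ, mem_solL.mpr (mem_sol.mp h2)⟩⟩

lemma g0_inter_solR (S : Finset (Fin (n₁ + n₂) → Bool)) (C : Clause k n₂) :
    (g0 : Fn _) (S ∩ solR C) = (g0 : Fn _) (S.image resR ∩ sol C) := by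
  rw [g0_eq_ite, g0_eq_ite]
  congr 1
  apply propext
  constructor
  · rintro ⟨σ, hσ⟩
    rw [Finset.mem_inter] at hσ
    exact ⟨resR σ, Finset.mem_inter.mpr ⟨Finset.mem_image_of_mem _ hσ.1, mem_sol.mpr (mem_solR.mp hσ.2)⟩⟩
  · rintro ⟨τ, hτ⟩
    rw [Finset.mem_inter, Finset.mem_image] at hτ
    obtain ⟨⟨σ, hσ, rfl⟩, h2⟩ := hτ
    exact ⟨σ, Finset.mem_inter.mpr ⟨hσ, mem_solR.mpr (mem_sol.mp h2)⟩⟩

lemma Avg_solL_g0 (h : k ≤ n₁) {S : Finset (Fin (n₁ + n₂) → Bool)} (hS : S.Nonempty) :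
    Avg (solL : Clause k n₁ → _) (g0 : Fn _) S = 1 - killP k (S.image resL) := by
  rw [← Avg_g0_eq h (hS.image _), Avg_apply, Avg_apply]
  simp only [g0_inter_solL]

lemma Avg_solR_g0 (h : k ≤ n₂) {S : Finset (Fin (n₁ + n₂) → Bool)} (hS : S.Nonempty) :
    Avg (solR : Clause k n₂ → _) (g0 : Fn _) S = 1 - killP k (S.image resR) := by
  rw [← Avg_g0_eq h (hS.image _), Avg_apply, Avg_apply]
  simp only [g0_inter_solR]

/-- Literals of the first block as literals of the whole. -/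
def litL : (Fin n₁ × Bool) ↪ (Fin (n₁ + n₂) × Bool) where
  toFun l := (Fin.castAdd n₂ l.1, l.2)
  inj' := by
    intro a b h
    simp only [Prod.mk.injEq] at h
    exact Prod.ext (Fin.castAdd_injective _ _ h.1) h.2

/-- Literals of the second block as literals of the whole. -/
def litR : (Fin n₂ × Bool) ↪ (Fin (n₁ + n₂) × Bool) where
  toFun l := (Fin.natAdd n₁ l.1, l.2)
  inj' := by
    intro a b h
    simp only [Prod.mk.injEq] at h
    exact Prod.ext (Fin.natAdd_injective _ _ h.1) h.2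

lemma falseLits_split (S : Finset (Fin (n₁ + n₂) → Bool)) :
    falseLits S = (falseLits (S.image resL)).map litL ∪ (falseLits (S.image resR)).map litR := by
  ext ⟨v, b⟩
  simp only [Finset.mem_union, Finset.mem_map, mem_falseLits]
  constructor
  · intro h
    refine Fin.addCases (motive := fun v => (∀ σ ∈ S, σ v ≠ b) →
      (∃ a, (∀ τ ∈ S.image resL, τ a.1 ≠ a.2) ∧ litL a = (v, b)) ∨
      (∃ a, (∀ τ ∈ S.image resR, τ a.1 ≠ a.2) ∧ litR a = (v, b))) ?_ ?_ v h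
    · intro i hi
      left
      refine ⟨(i, b), ?_, rfl⟩
      intro τ hτ
      obtain ⟨σ, hσ, rfl⟩ := Finset.mem_image.mp hτ
      exact hi σ hσ
    · intro i hi
      right
      refine ⟨(i, b), ?_, rfl⟩
      intro τ hτ
      obtain ⟨σ, hσ, rfl⟩ := Finset.mem_image.mp hτ
      exact hi σ hσ
  · rintro (⟨⟨i, c⟩, h, he⟩ | ⟨⟨i, c⟩, h, he⟩)
    · have e1 : Fin.castAdd n₂ i = v := congrArg Prod.fst he
      have e2 : c = b := congrArg Prod.snd he
      subst e1 e2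
      intro σ hσ
      exact h (resL σ) (Finset.mem_image_of_mem _ hσ)
    · have e1 : Fin.natAdd n₁ i = v := congrArg Prod.fst he
      have e2 : c = b := congrArg Prod.snd he
      subst e1 e2
      intro σ hσ
      exact h (resR σ) (Finset.mem_image_of_mem _ hσ)

lemma falseLits_card_split (S : Finset (Fin (n₁ + n₂) → Bool)) :
    (falseLits S).card = (falseLits (S.image resL)).card + (falseLits (S.image resR)).card := by
  rw [falseLits_split, Finset.card_union_of_disjoint, Finset.card_map, Finset.card_map]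
  rw [Finset.disjoint_left]
  rintro ⟨v, b⟩ h1 h2
  obtain ⟨a, _, ha⟩ := Finset.mem_map.mp h1
  obtain ⟨c, _, hc⟩ := Finset.mem_map.mp h2
  have e1 : Fin.castAdd n₂ a.1 = v := congrArg Prod.fst ha
  have e2 : Fin.natAdd n₁ c.1 = v := congrArg Prod.fst hc
  have : (Fin.castAdd n₂ a.1 : Fin (n₁ + n₂)).val = (Fin.natAdd n₁ c.1 : Fin (n₁ + n₂)).val := by
    rw [e1, e2]
  simp only [Fin.val_castAdd, Fin.val_natAdd] at this
  have := a.1.isLt
  omega

/-- Abstract form of the product formula. -/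
lemma prod_abstract {X Y₁ Y₂ Ω₁ Ω₂ : Type} [DecidableEq X] [Fintype X] [DecidableEq Y₁] [Fintype Y₁]
    [DecidableEq Y₂] [Fintype Y₂] [Fintype Ω₁] [Fintype Ω₂] [Nonempty Ω₁] [Nonempty Ω₂]
    (A₁ : Ω₁ → Finset X) (A₂ : Ω₂ → Finset X) (B₁ : Ω₁ → Finset Y₁) (B₂ : Ω₂ → Finset Y₂) (a b : ℕ)
    (key : ∀ (F₁ : Fin a → Ω₁) (F₂ : Fin b → Ω₂),
      (g0 : Fn X) ((Finset.univ.filter (fun x => ∀ i, x ∈ A₁ (F₁ i))).filter
        (fun x => ∀ i, x ∈ A₂ (F₂ i)))
      = (g0 : Fn Y₁) (Finset.univ.filter (fun x => ∀ i, x ∈ B₁ (F₁ i))) *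
        (g0 : Fn Y₂) (Finset.univ.filter (fun x => ∀ i, x ∈ B₂ (F₂ i)))) :
    ((Avg A₁) ^ a) (((Avg A₂) ^ b) (g0 : Fn X)) Finset.univ
      = ((Avg B₁) ^ a) (g0 : Fn Y₁) Finset.univ * ((Avg B₂) ^ b) (g0 : Fn Y₂) Finset.univ := by
  rw [Avg_pow_apply A₁, Avg_pow_apply B₁, Avg_pow_apply B₂]
  have e : ∀ F₁ : Fin a → Ω₁,
      ((Avg A₂) ^ b) (g0 : Fn X) (Finset.univ.filter (fun x => ∀ i, x ∈ A₁ (F₁ i)))
      = (g0 : Fn Y₁) (Finset.univ.filter (fun x => ∀ i, x ∈ B₁ (F₁ i))) *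
        ((∑ F₂ : Fin b → Ω₂, (g0 : Fn Y₂) (Finset.univ.filter (fun x => ∀ i, x ∈ B₂ (F₂ i)))) /
          (Fintype.card Ω₂ : ℝ) ^ b) := by
    intro F₁
    rw [Avg_pow_apply A₂, ← mul_div_assoc, Finset.mul_sum]
    congr 1
    exact Finset.sum_congr rfl (fun F₂ _ => key F₁ F₂)
  simp only [e]
  rw [← Finset.sum_mul, div_mul_eq_mul_div]

/-- The product formula: two independent systems on disjoint variable sets. -/
lemma prod_formula (h₁ : k ≤ n₁) (h₂ : k ≤ n₂) (a b : ℕ) :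
    ((Avg (solL : Clause k n₁ → _)) ^ a)
        (((Avg (solR : Clause k n₂ → _)) ^ b) (g0 : Fn (Fin (n₁ + n₂) → Bool))) Finset.univ
      = satProb k n₁ a * satProb k n₂ b := by
  classical
  have := nonempty_clause h₁
  have := nonempty_clause h₂
  rw [satProb_eq k n₁ a h₁, satProb_eq k n₂ b h₂]
  apply prod_abstract
  intro F₁ F₂
  rw [g0_eq_ite, g0_eq_ite, g0_eq_ite]
  by_cases hL : ∃ τ : Fin n₁ → Bool, ∀ i, τ ∈ sol (F₁ i)
  · by_cases hR : ∃ τ : Fin n₂ → Bool, ∀ i, τ ∈ sol (F₂ i)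
    · obtain ⟨τ₁, ht₁⟩ := hL
      obtain ⟨τ₂, ht₂⟩ := hR
      have n1 : (Finset.univ.filter (fun x => ∀ i, x ∈ sol (F₁ i))).Nonempty :=
        ⟨τ₁, by simpa using ht₁⟩
      have n2 : (Finset.univ.filter (fun x => ∀ i, x ∈ sol (F₂ i))).Nonempty :=
        ⟨τ₂, by simpa using ht₂⟩
      rw [if_pos n1, if_pos n2, if_pos]
      · norm_num
      · refine ⟨Fin.append τ₁ τ₂, ?_⟩
        simp only [Finset.mem_filter, Finset.mem_univ, true_and]
        have eL : resL (Fin.append τ₁ τ₂) = τ₁ := by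
          funext i
          simp [resL]
        have eR : resR (Fin.append τ₁ τ₂) = τ₂ := by
          funext i
          simp [resR]
        constructor
        · intro i
          rw [mem_solL, eL]
          exact mem_sol.mp (ht₁ i)
        · intro i
          rw [mem_solR, eR]
          exact mem_sol.mp (ht₂ i)
    · have n2 : ¬ (Finset.univ.filter (fun x => ∀ i, x ∈ sol (F₂ i))).Nonempty := by
        rintro ⟨τ, ht⟩
        exact hR ⟨τ, by simpa using ht⟩
      rw [if_neg n2, if_neg]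
      · simp
      · rintro ⟨σ, hσ⟩
        simp only [Finset.mem_filter, Finset.mem_univ, true_and] at hσ
        exact hR ⟨resR σ, fun i => mem_sol.mpr (mem_solR.mp (hσ.2 i))⟩
  · have n1 : ¬ (Finset.univ.filter (fun x => ∀ i, x ∈ sol (F₁ i))).Nonempty := by
      rintro ⟨τ, ht⟩
      exact hL ⟨τ, by simpa using ht⟩
    rw [if_neg n1, if_neg]
    · simp
    · rintro ⟨σ, hσ⟩
      simp only [Finset.mem_filter, Finset.mem_univ, true_and] at hσ
      exact hL ⟨resL σ, fun i => mem_sol.mpr (mem_solL.mp (hσ.1 i))⟩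

/-- The pointwise comparison for a nonempty set of assignments. -/
lemma pointwise_mix {j : ℕ} (h₁ : j + 1 ≤ n₁) (h₂ : j + 1 ≤ n₂) {T v₁ v₂ : ℝ}
    (hT : ((j + 1 : ℕ) : ℝ) ^ 2 ≤ T) (hv₁ : 0 < v₁) (hv₂ : 0 < v₂)
    {S : Finset (Fin (n₁ + n₂) → Bool)} (hS : S.Nonempty) :
    ((1 - ((j + 1 : ℕ) : ℝ) ^ 2 / T) * ((n₁ + n₂ : ℕ) : ℝ) ^ (j + 1) / (v₁ + v₂) ^ j) *
        killP (j + 1) S
      ≤ ((n₁ : ℝ) ^ (j + 1) / v₁ ^ j) * killP (j + 1) (S.image resL)
        + ((n₂ : ℝ) ^ (j + 1) / v₂ ^ j) * killP (j + 1) (S.image resR)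
        + (T / 2) ^ (j + 1) * (1 / v₁ ^ j + 1 / v₂ ^ j) := by
  unfold killP
  rw [falseLits_card_split]
  exact numeric_mix (falseLits_card_le (hS.image _)) (falseLits_card_le (hS.image _)) h₁ h₂ hT hv₁ hv₂

end concrete

end Vale.Agent.Lib.P170
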