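import Vale.Agent.Lib.P170.MixConcrete

namespace Vale.Agent.Lib.P170

open Finset

set_option linter.unusedSectionVars false
set_option linter.unusedVariables false
set_option linter.style.haveILetI false

lemma Avg_g0_empty {X : Type} [DecidableEq X] {Ω : Type} [Fintype Ω] (A : Ω → Finset X) :
    Avg A (g0 : Fn X) ∅ = 0 := by
  have := Avg_pow_empty A 1
  simpa using this

/-- The finite form of the mixing inequality. -/
theorem mix_finite {j n₁ n₂ m J₁ J₂ : ℕ} (h₁ : j + 1 ≤ n₁) (h₂ : j + 1 ≤ n₂) {T v₁ v₂ t₁ t₂ A B₁ B₂ E : ℝ}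
    (hT : ((j + 1 : ℕ) : ℝ) ^ 2 ≤ T) (hv₁ : 0 < v₁) (hv₂ : 0 < v₂) (ht₁ : 0 < t₁) (ht₂ : 0 < t₂)
    (hA : A = (1 - ((j + 1 : ℕ) : ℝ) ^ 2 / T) * ((n₁ + n₂ : ℕ) : ℝ) ^ (j + 1) / (v₁ + v₂) ^ j)
    (hB₁ : B₁ = (n₁ : ℝ) ^ (j + 1) / v₁ ^ j) (hB₂ : B₂ = (n₂ : ℝ) ^ (j + 1) / v₂ ^ j)
    (hE : E = (T / 2) ^ (j + 1) * (1 / v₁ ^ j + 1 / v₂ ^ j))
    (hm : (m : ℝ) < A) (hJ₁ : B₁ + t₁ ≤ J₁) (hJ₂ : B₂ + t₂ ≤ J₂) :
    (1 - B₁ / t₁ ^ 2 - B₂ / t₂ ^ 2) * (satProb (j + 1) n₁ J₁ * satProb (j + 1) n₂ J₂)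
        - E - A / (A - m) ^ 2 ≤ satProb (j + 1) (n₁ + n₂) m := by
  have hn : j + 1 ≤ n₁ + n₂ := by omega
  have i₁ := nonempty_clause h₁
  have i₂ := nonempty_clause h₂
  have i₀ := nonempty_clause hn
  have hk1 : (1 : ℝ) ≤ ((j + 1 : ℕ) : ℝ) := by
    push_cast; linarith [(Nat.cast_nonneg j : (0 : ℝ) ≤ j)]
  have hT0 : 0 < T := by nlinarith
  have hA0 : 0 < A := lt_of_le_of_lt (Nat.cast_nonneg m) hm
  have hB₁0 : 0 ≤ B₁ := by rw [hB₁]; positivity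
  have hB₂0 : 0 ≤ B₂ := by rw [hB₂]; positivity
  have hE0 : 0 ≤ E := by rw [hE]; positivity
  set N : ℕ := ⌈A + B₁ + B₂⌉₊ + 1 with hN
  have hNge : A + B₁ + B₂ + 1 ≤ (N : ℝ) := by
    rw [hN]; push_cast; linarith [Nat.le_ceil (A + B₁ + B₂)]
  have hN0 : (0 : ℝ) < N := by linarith
  have ha0 : 0 ≤ A / N := by positivity
  have ha1 : A / N ≤ 1 := (div_le_one hN0).mpr (by linarith)
  have hb₁0 : 0 ≤ B₁ / N := by positivity
  have hb₂0 : 0 ≤ B₂ / N := by positivity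
  have hb : B₁ / N + B₂ / N ≤ 1 := by
    rw [← add_div]
    exact (div_le_one hN0).mpr (by linarith)
  have eNa : (N : ℝ) * (A / N) = A := by field_simp
  have eNb₁ : (N : ℝ) * (B₁ / N) = B₁ := by field_simp
  have eNb₂ : (N : ℝ) * (B₂ / N) = B₂ := by field_simp
  have eNe : (N : ℝ) * (E / N) = E := by field_simp
  -- the pointwise comparison
  have H : ∀ S : Finset (Fin (n₁ + n₂) → Bool),
      Lazy2 (solL : Clause (j + 1) n₁ → _) (solR : Clause (j + 1) n₂ → _) (B₁ / N) (B₂ / N)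
          (g0 : Fn (Fin (n₁ + n₂) → Bool)) S - E / N
        ≤ Lazy1 (sol : Clause (j + 1) (n₁ + n₂) → _) (A / N) (g0 : Fn (Fin (n₁ + n₂) → Bool)) S := by
    intro S
    rw [Lazy1_apply, Lazy2_apply]
    by_cases hS : S.Nonempty
    · rw [Avg_g0_eq hn hS, Avg_solL_g0 h₁ hS, Avg_solR_g0 h₂ hS]
      have hg : (g0 : Fn (Fin (n₁ + n₂) → Bool)) S = 1 := by
        rw [g0_eq_ite, if_pos hS]
      rw [hg]
      have hp := pointwise_mix h₁ h₂ hT hv₁ hv₂ hS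
      rw [← hA, ← hB₁, ← hB₂, ← hE] at hp
      have hp2 := div_le_div_of_nonneg_right hp hN0.le
      have e1 : A * killP (j + 1) S / N = A / N * killP (j + 1) S := by ring
      have e2 : (B₁ * killP (j + 1) (S.image resL) + B₂ * killP (j + 1) (S.image resR) + E) / N
          = B₁ / N * killP (j + 1) (S.image resL) + B₂ / N * killP (j + 1) (S.image resR)
            + E / N := by ring
      rw [e1, e2] at hp2
      nlinarith
    · rw [Finset.not_nonempty_iff_eq_empty] at hS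
      subst hS
      rw [Avg_g0_empty, Avg_g0_empty, Avg_g0_empty, g0_empty]
      have : 0 ≤ E / N := by positivity
      linarith
  have hh := hybrid (sol : Clause (j + 1) (n₁ + n₂) → _) (solL : Clause (j + 1) n₁ → _)
    (solR : Clause (j + 1) n₂ → _) ha0 ha1 hb₁0 hb₂0 hb H N Finset.univ
  have hg := lazy2_ge (solL : Clause (j + 1) n₁ → _) (solR : Clause (j + 1) n₂ → _) hb₁0 hb₂0 hb
    ht₁ ht₂ (J₁ := J₁) (J₂ := J₂) (N := N) (by rw [eNb₁]; exact hJ₁) (by rw [eNb₂]; exact hJ₂)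
    (Finset.univ : Finset (Fin (n₁ + n₂) → Bool))
  have hl := lazy1_le (sol : Clause (j + 1) (n₁ + n₂) → _) ha0 ha1 (m := m) (N := N)
    (by rw [eNa]; exact hm) (Finset.univ : Finset (Fin (n₁ + n₂) → Bool))
  rw [eNb₁, eNb₂, prod_formula h₁ h₂] at hg
  rw [eNa, ← satProb_eq _ _ _ hn] at hl
  rw [eNe] at hh
  linarith

end Vale.Agent.Lib.P170
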