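import Vale.Agent.Lib.P170.MixFinite
import Vale.Agent.Lib.P170.Main

namespace Vale.Agent.Lib.P170

open Filter Topology

set_option linter.unusedVariables false
set_option linter.style.haveILetI false

lemma eA_id (j : ℕ) {X V s : ℝ} (hX : 0 < X) (hV : 0 < V) (hs : 0 < s) :
    X ^ (j + 1) / ((1 + s) * V) ^ j = (1 / (1 + s)) ^ j * (X * (X / V) ^ j) := by
  simp only [div_pow, mul_pow, one_pow, pow_succ]
  field_simp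

lemma eB_id (j : ℕ) {x u s : ℝ} (hx : 0 < x) (hu : 0 < u) (hs : 0 < s) :
    x ^ (j + 1) / ((1 + s) * (x * u)) ^ j = x * ((1 / (1 + s)) ^ j * (1 / u ^ j)) := by
  simp only [div_pow, mul_pow, one_pow, pow_succ]
  field_simp

lemma eE_id (j : ℕ) {x u s : ℝ} (hx : 0 < x) (hu : 0 < u) (hs : 0 < s) :
    1 / ((1 + s) * (x * u)) ^ j = (1 / (1 + s)) ^ j * (1 / u ^ j) * (1 / x ^ j) := by
  simp only [div_pow, mul_pow, one_pow]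
  field_simp

lemma cbar_le (j : ℕ) {x₁ x₂ u₁ u₂ C : ℝ} (hx₁ : 0 < x₁) (hx₂ : 0 < x₂) (hu₁ : 0 < u₁) (hu₂ : 0 < u₂)
    (h₁ : 1 / u₁ ^ j ≤ C) (h₂ : 1 / u₂ ^ j ≤ C) :
    ((x₁ + x₂) / (x₁ * u₁ + x₂ * u₂)) ^ j ≤ C := by
  have hV0 : 0 < x₁ * u₁ + x₂ * u₂ := by positivity
  rcases le_total u₁ u₂ with hle | hle
  · have h1 : (x₁ + x₂) * u₁ ≤ x₁ * u₁ + x₂ * u₂ := by nlinarith
    have h2 : (x₁ + x₂) / (x₁ * u₁ + x₂ * u₂) ≤ 1 / u₁ := by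
      rw [div_le_div_iff₀ hV0 hu₁]
      linarith
    have h3 : ((x₁ + x₂) / (x₁ * u₁ + x₂ * u₂)) ^ j ≤ 1 / u₁ ^ j := by
      rw [← one_div_pow]
      exact pow_le_pow_left₀ (by positivity) h2 j
    linarith
  · have h1 : (x₁ + x₂) * u₂ ≤ x₁ * u₁ + x₂ * u₂ := by nlinarith
    have h2 : (x₁ + x₂) / (x₁ * u₁ + x₂ * u₂) ≤ 1 / u₂ := by
      rw [div_le_div_iff₀ hV0 hu₂]
      linarith
    have h3 : ((x₁ + x₂) / (x₁ * u₁ + x₂ * u₂)) ^ j ≤ 1 / u₂ ^ j := by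
      rw [← one_div_pow]
      exact pow_le_pow_left₀ (by positivity) h2 j
    linarith

/-- The error term of one block. -/
lemma error_block {j : ℕ} (hj : 1 ≤ j) {x u s C Y : ℝ} (hx : 1 ≤ x) (hu : 0 < u) (hs : 0 < s) (hC : 0 < C)
    (hc : 1 / u ^ j ≤ C) (hY : 0 ≤ Y) (hlarge : 32 * (Y * C) ≤ 1 * x) :
    Y * (1 / ((1 + s) * (x * u)) ^ j) ≤ 1 / 32 := by
  have hx0 : 0 < x := by linarith
  rw [eE_id j hx0 hu hs]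
  have hρ1 : (1 / (1 + s)) ^ j ≤ 1 := by
    apply pow_le_one₀ (by positivity)
    rw [div_le_one (by positivity)]
    linarith
  have hρ0 : 0 ≤ (1 / (1 + s)) ^ j := by positivity
  have hxj : x ≤ x ^ j := le_self_pow₀ hx (by omega)
  have h1 : 1 / x ^ j ≤ 1 / x := div_le_div_of_nonneg_left (by norm_num) hx0 hxj
  have hcc : 0 < 1 / u ^ j := by positivity
  have h2 : (1 / (1 + s)) ^ j * (1 / u ^ j) ≤ C := by nlinarith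
  have h3 : (1 / (1 + s)) ^ j * (1 / u ^ j) * (1 / x ^ j) ≤ C * (1 / x) :=
    mul_le_mul h2 h1 (by positivity) hC.le
  have h4 : Y * ((1 / (1 + s)) ^ j * (1 / u ^ j) * (1 / x ^ j)) ≤ Y * (C * (1 / x)) :=
    mul_le_mul_of_nonneg_left h3 hY
  refine h4.trans ?_
  have e : Y * (C * (1 / x)) = (Y * C) / x := by ring
  rw [e, div_le_iff₀ hx0]
  linarith

/-- The estimates of one block. -/
lemma block_bounds {x R ρ c c₀ δ C : ℝ} (hx : 0 < x) (hρ0 : 0 < ρ) (hρ1 : ρ ≤ 1)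
    (hc₀ : c₀ ≤ c) (hc₀0 : 0 < c₀) (hcR : c ≤ R) (hRC : R ≤ C) (hδ : 2 * δ = c₀ * (1 - ρ)) (hδ0 : 0 < δ)
    (hδx : 2 ≤ δ * x) (hlarge : 64 * C ≤ δ ^ 2 * x) :
    0 < δ * x - 1 ∧ x * (ρ * c) + (δ * x - 1) ≤ (⌊(R - δ) * x⌋₊ : ℝ) ∧
      x * (ρ * c) / (δ * x - 1) ^ 2 ≤ 1 / 16 := by
  have ht0 : 0 < δ * x - 1 := by linarith
  refine ⟨ht0, ?_, ?_⟩
  · have hl := Nat.lt_floor_add_one ((R - δ) * x)
    have h1 : ρ * c + 2 * δ ≤ R := by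
      rw [hδ]
      nlinarith
    nlinarith
  · have hc0 : 0 < c := by linarith
    have hC0 : 0 < C := by linarith
    have hB : x * (ρ * c) ≤ x * C := by
      apply mul_le_mul_of_nonneg_left _ hx.le
      nlinarith
    rw [div_le_iff₀ (by positivity)]
    have ht : δ * x / 2 ≤ δ * x - 1 := by linarith
    have h1 : (δ * x / 2) ^ 2 ≤ (δ * x - 1) ^ 2 := pow_le_pow_left₀ (by positivity) ht 2
    have h2 : x * (64 * C) ≤ x * (δ ^ 2 * x) := mul_le_mul_of_nonneg_left hlarge hx.le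
    nlinarith

/-- The estimates for the number of clauses. -/
lemma gap_bounds {X R ε ξ C c κ : ℝ} (hX : 0 < X) (hε : 0 < ε) (hξ0 : 0 < ξ) (hξC : ξ * C = ε / 4)
    (hc0 : 0 < c) (hcC : c ≤ C) (hκ0 : 1 - ξ ≤ κ) (hκ1 : κ ≤ 1) (hR : 0 ≤ R + ε / 2) (hRc : R + ε < c)
    (hlarge : 256 * C ≤ ε ^ 2 * X) :
    (⌊(R + ε / 2) * X⌋₊ : ℝ) < κ * (X * c) ∧
      κ * (X * c) / (κ * (X * c) - (⌊(R + ε / 2) * X⌋₊ : ℝ)) ^ 2 ≤ 1 / 16 := by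
  have hmle : (⌊(R + ε / 2) * X⌋₊ : ℝ) ≤ (R + ε / 2) * X := Nat.floor_le (mul_nonneg hR hX.le)
  set m : ℝ := (⌊(R + ε / 2) * X⌋₊ : ℝ) with hm
  have hXc : 0 < X * c := by positivity
  have hAlow : (1 - ξ) * (X * c) ≤ κ * (X * c) := mul_le_mul_of_nonneg_right hκ0 hXc.le
  have hAup : κ * (X * c) ≤ X * C := by
    have h2 : X * c ≤ X * C := mul_le_mul_of_nonneg_left hcC hX.le
    nlinarith
  have hgap : ε / 4 * X ≤ κ * (X * c) - m := by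
    have h1 : (R + ε / 2) * X ≤ (c - ε / 2) * X := mul_le_mul_of_nonneg_right (by linarith) hX.le
    have h2 : ξ * c ≤ ε / 4 := by
      rw [← hξC]
      exact mul_le_mul_of_nonneg_left hcC hξ0.le
    have h3 : ξ * c * X ≤ ε / 4 * X := mul_le_mul_of_nonneg_right h2 hX.le
    nlinarith
  have hp : 0 < ε / 4 * X := by positivity
  refine ⟨by linarith, ?_⟩
  have hA0 : 0 < κ * (X * c) - m := by linarith
  rw [div_le_iff₀ (by positivity)]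
  have h1 : (ε / 4 * X) ^ 2 ≤ (κ * (X * c) - m) ^ 2 := pow_le_pow_left₀ hp.le hgap 2
  have h2 : X * (256 * C) ≤ X * (ε ^ 2 * X) := mul_le_mul_of_nonneg_left hlarge hX.le
  nlinarith

/-- Existence of the auxiliary constants. -/
lemma params_exist {j : ℕ} (hj : 1 ≤ j) {ε C c₀ : ℝ} (hε : 0 < ε) (hεC : ε ≤ C) (hc₀ : 0 < c₀) :
    ∃ ξ T s δ : ℝ, 0 < ξ ∧ ξ * C = ε / 4 ∧ 0 < T ∧ ((j + 1 : ℕ) : ℝ) ^ 2 ≤ T ∧
      1 - ((j + 1 : ℕ) : ℝ) ^ 2 / T = 1 - ξ / 2 ∧ 0 < s ∧ 0 < δ ∧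
      2 * δ = c₀ * (1 - (1 / (1 + s)) ^ j) ∧ (1 / (1 + s)) ^ j < 1 ∧
      1 - ξ / 2 ≤ (1 / (1 + s)) ^ j := by
  have hCpos : 0 < C := by linarith
  have hξpos : 0 < ε / (4 * C) := by positivity
  have hξC : ε / (4 * C) * C = ε / 4 := by field_simp
  have hξ1 : ε / (4 * C) ≤ 1 / 4 := by
    rw [div_le_iff₀ (by positivity)]
    nlinarith
  have hk1 : (1 : ℝ) ≤ ((j + 1 : ℕ) : ℝ) := by
    push_cast; linarith [(Nat.cast_nonneg j : (0 : ℝ) ≤ j)]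
  have hjr : (1 : ℝ) ≤ j := by exact_mod_cast hj
  generalize ε / (4 * C) = ξ at hξpos hξC hξ1
  have hs : 0 < ξ / (2 * j) := by positivity
  have hjs : (j : ℝ) * (ξ / (2 * j)) = ξ / 2 := by field_simp
  generalize ξ / (2 * j) = s at hs hjs
  have hy0 : 0 < 1 / (1 + s) := by positivity
  have hy1 : 1 / (1 + s) < 1 := by
    rw [div_lt_one (by positivity)]
    linarith
  have hρ1 : (1 / (1 + s)) ^ j < 1 := pow_lt_one₀ hy0.le hy1 (by omega)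
  have hρlow : 1 - ξ / 2 ≤ (1 / (1 + s)) ^ j := by
    have hB := one_add_mul_le_pow (a := 1 / (1 + s) - 1) (by linarith) j
    rw [add_sub_cancel] at hB
    have h1 : 1 / (1 + s) - 1 = -(s / (1 + s)) := by field_simp; ring
    have h2 : s / (1 + s) ≤ s := div_le_self hs.le (by linarith)
    have h3 : (j : ℝ) * (s / (1 + s)) ≤ (j : ℝ) * s :=
      mul_le_mul_of_nonneg_left h2 (by positivity)
    rw [h1] at hB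
    nlinarith
  refine ⟨ξ, 2 * ((j + 1 : ℕ) : ℝ) ^ 2 / ξ, s, c₀ * (1 - (1 / (1 + s)) ^ j) / 2, hξpos, hξC,
    by positivity, ?_, ?_, hs, ?_, by ring, hρ1, hρlow⟩
  · rw [le_div_iff₀ hξpos]
    nlinarith [sq_nonneg ((j + 1 : ℕ) : ℝ)]
  · have : ((j + 1 : ℕ) : ℝ) ≠ 0 := by linarith
    field_simp
  · have : 0 < 1 - (1 / (1 + s)) ^ j := by linarith
    positivity

lemma kappa_bounds {ξ ρ : ℝ} (hξ0 : 0 < ξ) (hξ1 : ξ ≤ 1) (hρ0 : 0 < ρ) (hρ1 : ρ ≤ 1)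
    (hρlow : 1 - ξ / 2 ≤ ρ) : 1 - ξ ≤ (1 - ξ / 2) * ρ ∧ (1 - ξ / 2) * ρ ≤ 1 := by
  constructor <;> nlinarith

lemma final_numeric {a b c d e f : ℝ} (h1 : a ≤ 1 / 16) (h2 : b ≤ 1 / 16) (h3 : (7 / 8 : ℝ) ≤ c)
    (h4 : (7 / 8 : ℝ) ≤ d) (h5 : e ≤ 1 / 16) (h6 : f ≤ 1 / 16) :
    (1 / 2 : ℝ) ≤ (1 - a - b) * (c * d) - e - f := by
  have hprod : (7 / 8 : ℝ) * (7 / 8) ≤ c * d := mul_le_mul h3 h4 (by norm_num) (by linarith)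
  have hfirst : (7 / 8 : ℝ) ≤ 1 - a - b := by linarith
  have hfin2 : (7 / 8 : ℝ) * ((7 / 8) * (7 / 8)) ≤ (1 - a - b) * (c * d) :=
    mul_le_mul hfirst hprod (by norm_num) (by linarith)
  linarith

/-- The finite step of the closure. -/
lemma closure_step {j n₁ n₂ : ℕ} (hj : 1 ≤ j) {R₁ R₂ R u₁ u₂ ε C c₀ ξ T s δ : ℝ}
    (hε : 0 < ε) (hC0 : 0 < C) (hc₀ : 0 < c₀) (hξ0 : 0 < ξ) (hξC : ξ * C = ε / 4)
    (hT0 : 0 < T) (hkT : ((j + 1 : ℕ) : ℝ) ^ 2 ≤ T)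
    (hθ : 1 - ((j + 1 : ℕ) : ℝ) ^ 2 / T = 1 - ξ / 2) (hs : 0 < s) (hδ0 : 0 < δ)
    (hδ : 2 * δ = c₀ * (1 - (1 / (1 + s)) ^ j)) (hρ1 : (1 / (1 + s)) ^ j < 1)
    (hρlow : 1 - ξ / 2 ≤ (1 / (1 + s)) ^ j) (hξ1 : ξ ≤ 1)
    (hn₁ : j + 1 + 1 ≤ n₁) (hn₂ : j + 1 + 1 ≤ n₂) (hu₁ : 0 < u₁) (hu₂ : 0 < u₂)
    (hc₀₁ : c₀ ≤ 1 / u₁ ^ j) (hc₀₂ : c₀ ≤ 1 / u₂ ^ j) (hR₁ : 1 / u₁ ^ j ≤ R₁) (hR₂ : 1 / u₂ ^ j ≤ R₂)
    (hR₁C : R₁ ≤ C) (hR₂C : R₂ ≤ C)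
    (l₁ : 2 ≤ δ * n₁) (l₂ : 2 ≤ δ * n₂)
    (m₁ : 64 * C ≤ δ ^ 2 * n₁) (m₂ : 64 * C ≤ δ ^ 2 * n₂)
    (e₁ : 32 * ((T / 2) ^ (j + 1) * C) ≤ 1 * n₁) (e₂ : 32 * ((T / 2) ^ (j + 1) * C) ≤ 1 * n₂)
    (gl : 256 * C ≤ ε ^ 2 * ((n₁ : ℝ) + n₂))
    (hRpos : 0 ≤ R + ε / 2)
    (hRc : R + ε < (((n₁ : ℝ) + n₂) / ((n₁ : ℝ) * u₁ + (n₂ : ℝ) * u₂)) ^ j)
    (P₁ : (7 / 8 : ℝ) ≤ satProb (j + 1) n₁ ⌊(R₁ - δ) * (n₁ : ℝ)⌋₊)
    (P₂ : (7 / 8 : ℝ) ≤ satProb (j + 1) n₂ ⌊(R₂ - δ) * (n₂ : ℝ)⌋₊) :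
    (1 / 2 : ℝ) ≤ satProb (j + 1) (n₁ + n₂) ⌊(R + ε / 2) * ((n₁ : ℝ) + n₂)⌋₊ := by
  have hx₁1 : (1 : ℝ) ≤ n₁ := by exact_mod_cast (by omega : 1 ≤ n₁)
  have hx₂1 : (1 : ℝ) ≤ n₂ := by exact_mod_cast (by omega : 1 ≤ n₂)
  have hx₁0 : (0 : ℝ) < n₁ := by linarith
  have hx₂0 : (0 : ℝ) < n₂ := by linarith
  have hX0 : (0 : ℝ) < (n₁ : ℝ) + n₂ := by positivity
  have hV0 : (0 : ℝ) < (n₁ : ℝ) * u₁ + (n₂ : ℝ) * u₂ := by positivity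
  have hρ0 : 0 < (1 / (1 + s)) ^ j := by positivity
  have hc0 : 0 < (((n₁ : ℝ) + n₂) / ((n₁ : ℝ) * u₁ + (n₂ : ℝ) * u₂)) ^ j := by positivity
  have hcC := cbar_le j hx₁0 hx₂0 hu₁ hu₂ (hR₁.trans hR₁C) (hR₂.trans hR₂C)
  have hv₁0 : 0 < (1 + s) * ((n₁ : ℝ) * u₁) := by positivity
  have hv₂0 : 0 < (1 + s) * ((n₂ : ℝ) * u₂) := by positivity
  have hvV : (1 + s) * ((n₁ : ℝ) * u₁) + (1 + s) * ((n₂ : ℝ) * u₂)
      = (1 + s) * ((n₁ : ℝ) * u₁ + (n₂ : ℝ) * u₂) := by ring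
  obtain ⟨t₁0, b₁J, b₁C⟩ := block_bounds hx₁0 hρ0 hρ1.le hc₀₁ hc₀ hR₁ hR₁C hδ hδ0 l₁ m₁
  obtain ⟨t₂0, b₂J, b₂C⟩ := block_bounds hx₂0 hρ0 hρ1.le hc₀₂ hc₀ hR₂ hR₂C hδ hδ0 l₂ m₂
  obtain ⟨hκ0, hκ1⟩ := kappa_bounds hξ0 hξ1 hρ0 hρ1.le hρlow
  obtain ⟨g1, g2⟩ := gap_bounds hX0 hε hξ0 hξC hc0 hcC hκ0 hκ1 hRpos hRc gl
  have hcast : ((n₁ + n₂ : ℕ) : ℝ) = (n₁ : ℝ) + n₂ := by push_cast; ring
  have eA : (1 - ((j + 1 : ℕ) : ℝ) ^ 2 / T) * ((n₁ + n₂ : ℕ) : ℝ) ^ (j + 1) /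
        ((1 + s) * ((n₁ : ℝ) * u₁) + (1 + s) * ((n₂ : ℝ) * u₂)) ^ j
      = (1 - ξ / 2) * (1 / (1 + s)) ^ j *
        (((n₁ : ℝ) + n₂) * (((n₁ : ℝ) + n₂) / ((n₁ : ℝ) * u₁ + (n₂ : ℝ) * u₂)) ^ j) := by
    rw [hθ, hcast, hvV, mul_div_assoc, eA_id j hX0 hV0 hs]
    ring
  have eB₁ : (n₁ : ℝ) ^ (j + 1) / ((1 + s) * ((n₁ : ℝ) * u₁)) ^ j
      = (n₁ : ℝ) * ((1 / (1 + s)) ^ j * (1 / u₁ ^ j)) := eB_id j hx₁0 hu₁ hs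
  have eB₂ : (n₂ : ℝ) ^ (j + 1) / ((1 + s) * ((n₂ : ℝ) * u₂)) ^ j
      = (n₂ : ℝ) * ((1 / (1 + s)) ^ j * (1 / u₂ ^ j)) := eB_id j hx₂0 hu₂ hs
  have hY : 0 ≤ (T / 2) ^ (j + 1) := by positivity
  have hE₁ := error_block hj hx₁1 hu₁ hs hC0 (hR₁.trans hR₁C) hY e₁
  have hE₂ := error_block hj hx₂1 hu₂ hs hC0 (hR₂.trans hR₂C) hY e₂
  have hE : (T / 2) ^ (j + 1) * (1 / ((1 + s) * ((n₁ : ℝ) * u₁)) ^ j
      + 1 / ((1 + s) * ((n₂ : ℝ) * u₂)) ^ j) ≤ 1 / 16 := by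
    rw [mul_add]
    linarith
  have hfin := mix_finite (j := j) (n₁ := n₁) (n₂ := n₂) (m := ⌊(R + ε / 2) * ((n₁ : ℝ) + n₂)⌋₊)
    (J₁ := ⌊(R₁ - δ) * (n₁ : ℝ)⌋₊) (J₂ := ⌊(R₂ - δ) * (n₂ : ℝ)⌋₊)
    (by omega) (by omega) hkT hv₁0 hv₂0 t₁0 t₂0 eA.symm eB₁.symm eB₂.symm rfl g1 b₁J b₂J
  exact (final_numeric b₁C b₂C P₁ P₂ hE g2).trans hfin

/-- Power-mean closure of the threshold sequence. -/
theorem power_mean_closure {j : ℕ} (hj : 1 ≤ j) {r : ℕ → ℝ} (h : IsThresholdSeq (j + 1) r)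
    {U ε : ℝ} (hU : 0 < U) (hε : 0 < ε) :
    ∃ n₀ : ℕ, ∀ n₁ n₂ : ℕ, n₀ ≤ n₁ → n₀ ≤ n₂ → ∀ u₁ u₂ : ℝ, 0 < u₁ → u₁ ≤ U → 0 < u₂ → u₂ ≤ U →
      1 / u₁ ^ j ≤ r n₁ → 1 / u₂ ^ j ≤ r n₂ →
      (((n₁ : ℝ) + n₂) / ((n₁ : ℝ) * u₁ + (n₂ : ℝ) * u₂)) ^ j - ε ≤ r (n₁ + n₂) := by
  obtain ⟨C₀, hC₀pos, hC₀⟩ := exists_bound h
  have hCpos : 0 < C₀ + ε := by positivity
  have hc₀pos : 0 < 1 / U ^ j := by positivity
  obtain ⟨ξ, T, s, δ, hξ0, hξC, hT0, hkT, hθ, hs, hδ0, hδ, hρ1, hρlow⟩ :=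
    params_exist hj hε (by linarith : ε ≤ C₀ + ε) hc₀pos
  have hξ1 : ξ ≤ 1 := by
    have : ξ * (C₀ + ε) ≤ 1 * (C₀ + ε) := by
      rw [hξC]; nlinarith
    exact le_of_mul_le_mul_right this hCpos
  have F2 := eventually_gt h (by positivity : 0 < ε / 2)
  have F3 : ∀ᶠ n : ℕ in atTop, (7 / 8 : ℝ) < satProb (j + 1) n ⌊(r n - δ) * (n : ℝ)⌋₊ :=
    (h δ hδ0).1.eventually (lt_mem_nhds (by norm_num))
  have F4 : ∀ᶠ n : ℕ in atTop, satProb (j + 1) n ⌊(r n + ε / 2) * (n : ℝ)⌋₊ < 1 / 2 :=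
    (h (ε / 2) (by positivity)).2.eventually (gt_mem_nhds (by norm_num))
  have large : ∀ (a b : ℝ), 0 < a → ∀ᶠ n : ℕ in atTop, b ≤ a * (n : ℝ) := fun a b ha =>
    (tendsto_natCast_atTop_atTop.const_mul_atTop ha).eventually (eventually_ge_atTop _)
  have G1 := large (δ ^ 2) (64 * (C₀ + ε)) (by positivity)
  have G2 := large δ 2 hδ0
  have G3 := large 1 (32 * ((T / 2) ^ (j + 1) * (C₀ + ε))) one_pos
  have G4 := large (ε ^ 2) (256 * (C₀ + ε)) (by positivity)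
  have G5 := eventually_ge_atTop (α := ℕ) (j + 1 + 1)
  obtain ⟨n₀, hn₀⟩ := eventually_atTop.mp
    (hC₀.and (F2.and (F3.and (F4.and (G1.and (G2.and (G3.and (G4.and G5))))))))
  refine ⟨n₀, ?_⟩
  intro n₁ n₂ hn₁ hn₂ u₁ u₂ hu₁ hu₁U hu₂ hu₂U hc₁ hc₂
  obtain ⟨a1, a2, a3, a4, a5, a6, a7, a8, a9⟩ := hn₀ n₁ hn₁
  obtain ⟨b1, b2, b3, b4, b5, b6, b7, b8, b9⟩ := hn₀ n₂ hn₂
  obtain ⟨d1, d2, d3, d4, d5, d6, d7, d8, d9⟩ := hn₀ (n₁ + n₂) (by omega)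
  have hcast : ((n₁ + n₂ : ℕ) : ℝ) = (n₁ : ℝ) + n₂ := by push_cast; ring
  rw [hcast] at d4 d8
  by_contra hcon
  have hcon' : r (n₁ + n₂) + ε < (((n₁ : ℝ) + n₂) / ((n₁ : ℝ) * u₁ + (n₂ : ℝ) * u₂)) ^ j := by
    have := not_le.mp hcon
    linarith
  have hc₀₁ : 1 / U ^ j ≤ 1 / u₁ ^ j :=
    div_le_div_of_nonneg_left (by norm_num) (by positivity) (pow_le_pow_left₀ hu₁.le hu₁U j)
  have hc₀₂ : 1 / U ^ j ≤ 1 / u₂ ^ j :=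
    div_le_div_of_nonneg_left (by norm_num) (by positivity) (pow_le_pow_left₀ hu₂.le hu₂U j)
  have key := closure_step hj (R := r (n₁ + n₂)) hε hCpos hc₀pos hξ0 hξC hT0 hkT hθ hs hδ0 hδ hρ1 hρlow hξ1
    a9 b9 hu₁ hu₂ hc₀₁ hc₀₂ hc₁ hc₂ (a1.trans (by linarith)) (b1.trans (by linarith))
    a6 b6 a5 b5 a7 b7 d8 (by linarith) hcon' a3.le b3.le
  linarith

/-- Closure under addition up to `o(1)`. -/
theorem min_closure {j : ℕ} (hj : 1 ≤ j) {r : ℕ → ℝ} (h : IsThresholdSeq (j + 1) r) {ε : ℝ}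
    (hε : 0 < ε) :
    ∃ n₀ : ℕ, ∀ n₁ n₂ : ℕ, n₀ ≤ n₁ → n₀ ≤ n₂ → min (r n₁) (r n₂) - ε ≤ r (n₁ + n₂) := by
  have hj0 : j ≠ 0 := by omega
  have hU0 : 0 < (2 / ε) ^ ((j : ℝ)⁻¹) := Real.rpow_pos_of_pos (by positivity) _
  have hUj : ((2 / ε) ^ ((j : ℝ)⁻¹)) ^ j = 2 / ε := Real.rpow_inv_natCast_pow (by positivity) hj0
  obtain ⟨n₁', h₁'⟩ := power_mean_closure hj h hU0 (by positivity : 0 < ε / 2)
  obtain ⟨n₂', h₂'⟩ := eventually_atTop.mp (eventually_gt h (by positivity : 0 < ε / 2))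
  refine ⟨max n₁' (max n₂' 1), ?_⟩
  intro n₁ n₂ hn₁ hn₂
  have a1 : n₁' ≤ n₁ := (le_max_left _ _).trans hn₁
  have a2 : n₁' ≤ n₂ := (le_max_left _ _).trans hn₂
  have a3 : n₂' ≤ n₁ + n₂ := by
    have := ((le_max_left n₂' 1).trans (le_max_right n₁' _)).trans hn₁
    omega
  have hgt := h₂' (n₁ + n₂) a3
  set c := min (r n₁) (r n₂) with hc
  by_cases hcase : c ≤ ε / 2
  · linarith
  · have hc2 : ε / 2 < c := not_le.mp hcase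
    have hc0 : 0 < c := by linarith
    have hu0 : 0 < (1 / c) ^ ((j : ℝ)⁻¹) := Real.rpow_pos_of_pos (by positivity) _
    have huj : ((1 / c) ^ ((j : ℝ)⁻¹)) ^ j = 1 / c := Real.rpow_inv_natCast_pow (by positivity) hj0
    generalize (1 / c) ^ ((j : ℝ)⁻¹) = u at hu0 huj
    generalize (2 / ε) ^ ((j : ℝ)⁻¹) = U at hU0 hUj h₁'
    have huU : u ≤ U := by
      apply (pow_le_pow_iff_left₀ hu0.le hU0.le hj0).mp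
      rw [huj, hUj, div_le_div_iff₀ hc0 hε]
      linarith
    have h1u : 1 / u ^ j = c := by
      rw [huj]
      field_simp
    have hle₁ : 1 / u ^ j ≤ r n₁ := by rw [h1u]; exact min_le_left _ _
    have hle₂ : 1 / u ^ j ≤ r n₂ := by rw [h1u]; exact min_le_right _ _
    have key := h₁' n₁ n₂ a1 a2 u u hu0 huU hu0 huU hle₁ hle₂
    have hn₁1 : 1 ≤ n₁ := ((le_max_right _ _).trans (le_max_right _ _)).trans hn₁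
    have hsum : (n₁ : ℝ) + n₂ ≠ 0 := by
      have h1 : (1 : ℝ) ≤ n₁ := by exact_mod_cast hn₁1
      have h2 : (0 : ℝ) ≤ n₂ := by positivity
      linarith
    have e : (((n₁ : ℝ) + n₂) / ((n₁ : ℝ) * u + (n₂ : ℝ) * u)) ^ j = c := by
      have : (n₁ : ℝ) * u + (n₂ : ℝ) * u = ((n₁ : ℝ) + n₂) * u := by ring
      rw [this, div_mul_cancel_left₀ hsum, inv_pow, ← one_div]
      exact h1u
    rw [e] at key
    linarith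

/-- Multiples: for fixed `N`, `r (N n)` cannot fall below `r n` by a fixed amount. -/
theorem multiple_closure {j : ℕ} (hj : 1 ≤ j) {r : ℕ → ℝ} (h : IsThresholdSeq (j + 1) r) (N : ℕ)
    (hN : 1 ≤ N) {ε : ℝ} (hε : 0 < ε) : ∀ᶠ n : ℕ in atTop, r n - ε ≤ r (N * n) := by
  induction N, hN using Nat.le_induction generalizing ε with
  | base => simp [hε.le]
  | succ N hN ih =>
    obtain ⟨n₀, hn₀⟩ := min_closure hj h (by positivity : 0 < ε / 2)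
    filter_upwards [ih (by positivity : 0 < ε / 2), eventually_ge_atTop n₀] with n h1 h2
    have hle : n₀ ≤ N * n := h2.trans (Nat.le_mul_of_pos_left n (by omega))
    have key := hn₀ (N * n) n hle h2
    have e : (N + 1) * n = N * n + n := by ring
    rw [e]
    have hm : r n - ε / 2 ≤ min (r (N * n)) (r n) := by
      apply le_min h1
      linarith
    linarith

end Vale.Agent.Lib.P170
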