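import Vale.Agent.Lib.P170.Mix

namespace Vale.Agent.Lib.P170

open Finset

set_option linter.unusedSectionVars false
set_option linter.unusedVariables false

/-- Falling factorials compared with powers. -/
lemma descFactorial_mul_pow_le {z n : ℕ} (hz : z ≤ n) (k : ℕ) :
    z.descFactorial k * n ^ k ≤ n.descFactorial k * z ^ k := by
  induction k with
  | zero => simp
  | succ k ih =>
    rw [Nat.descFactorial_succ, Nat.descFactorial_succ]
    have h1 : (z - k) * n ≤ (n - k) * z := by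
      by_cases h : k ≤ z
      · obtain ⟨a, rfl⟩ := Nat.exists_eq_add_of_le h
        obtain ⟨b, rfl⟩ := Nat.exists_eq_add_of_le hz
        have e1 : k + a - k = a := by omega
        have e2 : k + a + b - k = a + b := by omega
        rw [e1, e2]
        nlinarith
      · have : z - k = 0 := by omega
        simp [this]
    calc (z - k) * z.descFactorial k * n ^ (k + 1)
        = ((z - k) * n) * (z.descFactorial k * n ^ k) := by ring
      _ ≤ ((n - k) * z) * (n.descFactorial k * z ^ k) := Nat.mul_le_mul h1 ih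
      _ = (n - k) * n.descFactorial k * z ^ (k + 1) := by ring

/-- Ratio of binomial coefficients, upper bound. -/
lemma choose_ratio_le {z n k : ℕ} (hz : z ≤ n) (hkn : k ≤ n) (hn : 0 < n) :
    (z.choose k : ℝ) / (n.choose k : ℝ) ≤ ((z : ℝ) / n) ^ k := by
  have h := descFactorial_mul_pow_le hz k
  rw [Nat.descFactorial_eq_factorial_mul_choose, Nat.descFactorial_eq_factorial_mul_choose] at h
  have h2 : z.choose k * n ^ k ≤ n.choose k * z ^ k := by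
    have hf : 0 < k.factorial := Nat.factorial_pos k
    apply Nat.le_of_mul_le_mul_left _ hf
    calc k.factorial * (z.choose k * n ^ k) = k.factorial * z.choose k * n ^ k := by ring
      _ ≤ k.factorial * n.choose k * z ^ k := h
      _ = k.factorial * (n.choose k * z ^ k) := by ring
  have hC : (0 : ℝ) < (n.choose k : ℝ) := by exact_mod_cast Nat.choose_pos hkn
  have hn' : (0 : ℝ) < n := by exact_mod_cast hn
  rw [div_pow, div_le_div_iff₀ hC (by positivity)]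
  have h3 : (z.choose k : ℝ) * (n : ℝ) ^ k ≤ (n.choose k : ℝ) * (z : ℝ) ^ k := by exact_mod_cast h2
  linarith

/-- Ratio of binomial coefficients, lower bound. -/
lemma choose_ratio_ge {z n k : ℕ} (hz : z ≤ n) (hk : 1 ≤ k) (hkn : k ≤ n) {T : ℝ} (hT : (k : ℝ) ^ 2 ≤ T) :
    (1 - (k : ℝ) ^ 2 / T) * ((z : ℝ) / n) ^ k
      ≤ (z.choose k : ℝ) / (n.choose k : ℝ) + (T / n) ^ k := by
  have hk1 : (1 : ℝ) ≤ k := by exact_mod_cast hk
  have hT0 : 0 < T := by nlinarith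
  have hn : 0 < n := by omega
  have hn' : (0 : ℝ) < n := by exact_mod_cast hn
  have hC : (0 : ℝ) < (n.choose k : ℝ) := by exact_mod_cast Nat.choose_pos hkn
  have hθ1 : 1 - (k : ℝ) ^ 2 / T ≤ 1 := by
    have : 0 ≤ (k : ℝ) ^ 2 / T := by positivity
    linarith
  have hθ0 : 0 ≤ 1 - (k : ℝ) ^ 2 / T := by
    have : (k : ℝ) ^ 2 / T ≤ 1 := (div_le_one hT0).mpr hT
    linarith
  have hz0 : (0 : ℝ) ≤ (z : ℝ) / n := by positivity
  by_cases hzT : (z : ℝ) < T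
  · have h1 : ((z : ℝ) / n) ^ k ≤ (T / n) ^ k :=
      pow_le_pow_left₀ hz0 (div_le_div_of_nonneg_right hzT.le hn'.le) k
    have h2 : (1 - (k : ℝ) ^ 2 / T) * ((z : ℝ) / n) ^ k ≤ 1 * ((z : ℝ) / n) ^ k :=
      mul_le_mul_of_nonneg_right hθ1 (by positivity)
    have h3 : (0 : ℝ) ≤ (z.choose k : ℝ) / (n.choose k : ℝ) := by positivity
    linarith
  · have hzT' : T ≤ z := not_lt.mp hzT
    have hz0' : (0 : ℝ) < z := lt_of_lt_of_le hT0 hzT'
    -- lower bound on the falling factorial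
    have hzk : (k : ℝ) ≤ z := by nlinarith
    have hzk' : k ≤ z := by exact_mod_cast hzk
    have h1 : (z + 1 - k) ^ k ≤ z.descFactorial k := Nat.pow_sub_le_descFactorial z k
    have h2 : ((z : ℝ) - k) ^ k ≤ (z.descFactorial k : ℝ) := by
      have h3 : (((z + 1 - k) ^ k : ℕ) : ℝ) ≤ (z.descFactorial k : ℝ) := by exact_mod_cast h1
      refine le_trans ?_ h3
      push_cast
      rw [Nat.cast_sub (by omega)]
      push_cast
      apply pow_le_pow_left₀ (by linarith) (by linarith)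
    -- Bernoulli
    have hB : 1 + (k : ℝ) * (-((k : ℝ) / z)) ≤ (1 + (-((k : ℝ) / z))) ^ k := by
      apply one_add_mul_le_pow
      have : (k : ℝ) / z ≤ 1 := (div_le_one hz0').mpr hzk
      linarith
    have hθz : 1 - (k : ℝ) ^ 2 / T ≤ 1 + (k : ℝ) * (-((k : ℝ) / z)) := by
      have : (k : ℝ) ^ 2 / z ≤ (k : ℝ) ^ 2 / T :=
        div_le_div_of_nonneg_left (by positivity) hT0 hzT'
      have e : (k : ℝ) * (-((k : ℝ) / z)) = -((k : ℝ) ^ 2 / z) := by ring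
      rw [e]
      linarith
    have h4 : (1 - (k : ℝ) ^ 2 / T) * (z : ℝ) ^ k ≤ ((z : ℝ) - k) ^ k := by
      have e : ((z : ℝ) - k) ^ k = (1 + (-((k : ℝ) / z))) ^ k * (z : ℝ) ^ k := by
        rw [← mul_pow]
        congr 1
        field_simp
        ring
      rw [e]
      exact mul_le_mul_of_nonneg_right (hθz.trans hB) (by positivity)
    -- upper bound on the falling factorial of `n`
    have h5 : (n.descFactorial k : ℝ) ≤ (n : ℝ) ^ k := by
      exact_mod_cast Nat.descFactorial_le_pow n k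
    have hfac : (0 : ℝ) < (k.factorial : ℝ) := by exact_mod_cast Nat.factorial_pos k
    have e1 : (z.descFactorial k : ℝ) = (k.factorial : ℝ) * (z.choose k : ℝ) := by
      rw [Nat.descFactorial_eq_factorial_mul_choose]; push_cast; ring
    have e2 : (n.descFactorial k : ℝ) = (k.factorial : ℝ) * (n.choose k : ℝ) := by
      rw [Nat.descFactorial_eq_factorial_mul_choose]; push_cast; ring
    have e3 : (z.choose k : ℝ) / (n.choose k : ℝ)
        = (z.descFactorial k : ℝ) / (n.descFactorial k : ℝ) := by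
      rw [e1, e2, mul_div_mul_left _ _ hfac.ne']
    have hnd : (0 : ℝ) < (n.descFactorial k : ℝ) := by rw [e2]; positivity
    have h6 : (1 - (k : ℝ) ^ 2 / T) * ((z : ℝ) / n) ^ k
        ≤ (z.choose k : ℝ) / (n.choose k : ℝ) := by
      rw [e3, div_pow, ← mul_div_assoc]
      have hz2 : 0 ≤ (z.descFactorial k : ℝ) := by positivity
      calc (1 - (k : ℝ) ^ 2 / T) * (z : ℝ) ^ k / (n : ℝ) ^ k
          ≤ (z.descFactorial k : ℝ) / (n : ℝ) ^ k :=
            div_le_div_of_nonneg_right (h4.trans h2) (by positivity)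
        _ ≤ (z.descFactorial k : ℝ) / (n.descFactorial k : ℝ) :=
            div_le_div_of_nonneg_left hz2 hnd h5
    have h7 : (0 : ℝ) ≤ (T / n) ^ k := by positivity
    linarith

/-- Jensen's inequality in the form we need. -/
lemma jensen_pow {y₁ y₂ v₁ v₂ : ℝ} (hy₁ : 0 ≤ y₁) (hy₂ : 0 ≤ y₂) (hv₁ : 0 < v₁) (hv₂ : 0 < v₂)
    (j : ℕ) :
    (y₁ + y₂) ^ (j + 1) / (v₁ + v₂) ^ j ≤ y₁ ^ (j + 1) / v₁ ^ j + y₂ ^ (j + 1) / v₂ ^ j := by
  have hv : 0 < v₁ + v₂ := by linarith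
  have hc := (convexOn_pow (𝕜 := ℝ) (j + 1)).2 (x := y₁ / v₁) (y := y₂ / v₂)
    (Set.mem_Ici.mpr (by positivity)) (Set.mem_Ici.mpr (by positivity))
    (show 0 ≤ v₁ / (v₁ + v₂) by positivity) (show 0 ≤ v₂ / (v₁ + v₂) by positivity)
    (by field_simp)
  simp only [smul_eq_mul] at hc
  have e1 : v₁ / (v₁ + v₂) * (y₁ / v₁) + v₂ / (v₁ + v₂) * (y₂ / v₂) = (y₁ + y₂) / (v₁ + v₂) := by
    field_simp
  rw [e1, div_pow] at hc
  have e2 : v₁ / (v₁ + v₂) * (y₁ / v₁) ^ (j + 1) = (y₁ ^ (j + 1) / v₁ ^ j) / (v₁ + v₂) := by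
    rw [div_pow, pow_succ v₁]
    field_simp
  have e3 : v₂ / (v₁ + v₂) * (y₂ / v₂) ^ (j + 1) = (y₂ ^ (j + 1) / v₂ ^ j) / (v₁ + v₂) := by
    rw [div_pow, pow_succ v₂]
    field_simp
  rw [e2, e3, ← add_div, pow_succ (v₁ + v₂), ← div_div] at hc
  exact (div_le_div_iff_of_pos_right hv).mp hc

/-- The numerical heart of the comparison of operators. -/
lemma numeric_mix {j n₁ n₂ z₁ z₂ : ℕ} (hz₁ : z₁ ≤ n₁) (hz₂ : z₂ ≤ n₂)
    (hn₁ : j + 1 ≤ n₁) (hn₂ : j + 1 ≤ n₂) {T v₁ v₂ : ℝ} (hT : ((j + 1 : ℕ) : ℝ) ^ 2 ≤ T)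
    (hv₁ : 0 < v₁) (hv₂ : 0 < v₂) :
    ((1 - ((j + 1 : ℕ) : ℝ) ^ 2 / T) * ((n₁ + n₂ : ℕ) : ℝ) ^ (j + 1) / (v₁ + v₂) ^ j) *
        (((z₁ + z₂).choose (j + 1) : ℝ) / (NC (j + 1) (n₁ + n₂) : ℝ))
      ≤ ((n₁ : ℝ) ^ (j + 1) / v₁ ^ j) * ((z₁.choose (j + 1) : ℝ) / (NC (j + 1) n₁ : ℝ))
        + ((n₂ : ℝ) ^ (j + 1) / v₂ ^ j) * ((z₂.choose (j + 1) : ℝ) / (NC (j + 1) n₂ : ℝ))
        + (T / 2) ^ (j + 1) * (1 / v₁ ^ j + 1 / v₂ ^ j) := by
  set k := j + 1 with hk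
  set θ := 1 - ((k : ℕ) : ℝ) ^ 2 / T with hθ
  have hk1 : (1 : ℝ) ≤ (k : ℕ) := by
    rw [hk]; push_cast; linarith [(Nat.cast_nonneg j : (0 : ℝ) ≤ j)]
  have hT0 : 0 < T := by nlinarith
  have hθ0 : 0 ≤ θ := by
    have : ((k : ℕ) : ℝ) ^ 2 / T ≤ 1 := (div_le_one hT0).mpr hT
    rw [hθ]; linarith
  have n₁0 : (0 : ℝ) < n₁ := by exact_mod_cast (by omega : 0 < n₁)
  have n₂0 : (0 : ℝ) < n₂ := by exact_mod_cast (by omega : 0 < n₂)
  have hn0 : (0 : ℝ) < ((n₁ + n₂ : ℕ) : ℝ) := by push_cast; linarith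
  have hp : (0 : ℝ) < 2 ^ k := by positivity
  have hNC : ∀ a : ℕ, (NC k a : ℝ) = (a.choose k : ℝ) * 2 ^ k := by
    intro a; rw [NC_eq]; push_cast; ring
  have hC : ∀ a : ℕ, k ≤ a → (0 : ℝ) < (a.choose k : ℝ) := fun a ha => by
    exact_mod_cast Nat.choose_pos ha
  rw [hNC, hNC, hNC]
  -- reduce to ratios
  have r0 := choose_ratio_le (z := z₁ + z₂) (n := n₁ + n₂) (k := k) (by omega) (by omega) (by omega)
  have r1 := choose_ratio_ge (z := z₁) (n := n₁) (k := k) hz₁ (by omega) hn₁ hT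
  have r2 := choose_ratio_ge (z := z₂) (n := n₂) (k := k) hz₂ (by omega) hn₂ hT
  rw [← hθ] at r1 r2
  have hj := jensen_pow (y₁ := z₁) (y₂ := z₂) (v₁ := v₁) (v₂ := v₂) (by positivity) (by positivity)
    hv₁ hv₂ j
  rw [← hk] at hj
  -- first side
  have s1 : (θ * ((n₁ + n₂ : ℕ) : ℝ) ^ k / (v₁ + v₂) ^ j) *
        (((z₁ + z₂).choose k : ℝ) / (((n₁ + n₂).choose k : ℝ) * 2 ^ k))
      ≤ θ * (((z₁ : ℝ) + z₂) ^ k / (v₁ + v₂) ^ j) / 2 ^ k := by
    have hr : (((z₁ + z₂).choose k : ℝ) / (((n₁ + n₂).choose k : ℝ) * 2 ^ k))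
        ≤ (((z₁ + z₂ : ℕ) : ℝ) / ((n₁ + n₂ : ℕ) : ℝ)) ^ k / 2 ^ k := by
      rw [← div_div]
      exact div_le_div_of_nonneg_right r0 hp.le
    have hv : 0 < v₁ + v₂ := by linarith
    calc _ ≤ (θ * ((n₁ + n₂ : ℕ) : ℝ) ^ k / (v₁ + v₂) ^ j) *
          ((((z₁ + z₂ : ℕ) : ℝ) / ((n₁ + n₂ : ℕ) : ℝ)) ^ k / 2 ^ k) :=
          mul_le_mul_of_nonneg_left hr (by positivity)
      _ = _ := by
          rw [div_pow]
          push_cast
          push_cast at hn0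
          field_simp
  -- second side
  have s2 : ∀ {n z : ℕ} {v : ℝ}, (0 : ℝ) < n → k ≤ n → 0 < v →
      θ * (((z : ℝ) / n) ^ k) ≤ (z.choose k : ℝ) / (n.choose k : ℝ) + (T / n) ^ k →
      θ * ((z : ℝ) ^ k / v ^ j) / 2 ^ k
        ≤ ((n : ℝ) ^ k / v ^ j) * ((z.choose k : ℝ) / ((n.choose k : ℝ) * 2 ^ k))
          + (T / 2) ^ k * (1 / v ^ j) := by
    intro n z v hn hkn hv h
    have h' := mul_le_mul_of_nonneg_left h (by positivity : 0 ≤ (n : ℝ) ^ k / v ^ j / 2 ^ k)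
    have e1 : (n : ℝ) ^ k / v ^ j / 2 ^ k * (θ * ((z : ℝ) / n) ^ k)
        = θ * ((z : ℝ) ^ k / v ^ j) / 2 ^ k := by
      rw [div_pow]
      field_simp
    have e2 : (n : ℝ) ^ k / v ^ j / 2 ^ k * ((z.choose k : ℝ) / (n.choose k : ℝ) + (T / n) ^ k)
        = ((n : ℝ) ^ k / v ^ j) * ((z.choose k : ℝ) / ((n.choose k : ℝ) * 2 ^ k))
          + (T / 2) ^ k * (1 / v ^ j) := by
      have := hC n hkn
      rw [div_pow, div_pow]
      field_simp
    rw [e1, e2] at h'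
    exact h'
  have t1 := s2 (n := n₁) (z := z₁) (v := v₁) n₁0 hn₁ hv₁ r1
  have t2 := s2 (n := n₂) (z := z₂) (v := v₂) n₂0 hn₂ hv₂ r2
  have hj' : θ * (((z₁ : ℝ) + z₂) ^ k / (v₁ + v₂) ^ j) / 2 ^ k
      ≤ θ * ((z₁ : ℝ) ^ k / v₁ ^ j) / 2 ^ k + θ * ((z₂ : ℝ) ^ k / v₂ ^ j) / 2 ^ k := by
    rw [← add_div, ← mul_add]
    apply div_le_div_of_nonneg_right _ hp.le
    exact mul_le_mul_of_nonneg_left hj hθ0
  have e : (T / 2) ^ k * (1 / v₁ ^ j + 1 / v₂ ^ j)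
      = (T / 2) ^ k * (1 / v₁ ^ j) + (T / 2) ^ k * (1 / v₂ ^ j) := by ring
  rw [e]
  linarith

end Vale.Agent.Lib.P170
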