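import Mathlib

namespace Vale.Agent.Lib.P170

open Finset

section ops

variable {X : Type} [DecidableEq X]

set_option linter.unusedSectionVars false
set_option linter.unusedVariables false

/-- Functions on finite sets of assignments. -/
abbrev Fn (X : Type) := Finset X → ℝ

/-- Averaging over a random constraint. -/
noncomputable def Avg {Ω : Type} [Fintype Ω] (A : Ω → Finset X) : Module.End ℝ (Fn X) where
  toFun g := fun S => (∑ ω, g (S ∩ A ω)) / (Fintype.card Ω : ℝ)
  map_add' g h := by
    funext S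
    simp only [Pi.add_apply, Finset.sum_add_distrib, add_div]
  map_smul' c g := by
    funext S
    simp only [Pi.smul_apply, smul_eq_mul, RingHom.id_apply]
    rw [← Finset.mul_sum, mul_div_assoc]

lemma Avg_apply {Ω : Type} [Fintype Ω] (A : Ω → Finset X) (g : Fn X) (S : Finset X) :
    Avg A g S = (∑ ω, g (S ∩ A ω)) / (Fintype.card Ω : ℝ) := rfl

lemma Avg_comm {Ω Ω' : Type} [Fintype Ω] [Fintype Ω'] (A : Ω → Finset X) (B : Ω' → Finset X) :
    Commute (Avg A) (Avg B) := by
  apply LinearMap.ext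
  intro g
  funext S
  show Avg A (Avg B g) S = Avg B (Avg A g) S
  simp only [Avg_apply, Finset.sum_div, div_div]
  rw [Finset.sum_comm]
  refine Finset.sum_congr rfl (fun b _ => Finset.sum_congr rfl (fun a _ => ?_))
  rw [Finset.inter_right_comm, mul_comm]

/-- Monotone functions of the set. -/
def MonoFn (g : Fn X) : Prop := ∀ S T : Finset X, S ⊆ T → g S ≤ g T

/-- Order-preserving operators. -/
def OrderPres (T : Module.End ℝ (Fn X)) : Prop := ∀ f g : Fn X, f ≤ g → T f ≤ T g

lemma Avg_orderPres {Ω : Type} [Fintype Ω] (A : Ω → Finset X) : OrderPres (Avg A) := by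
  intro f g h S
  simp only [Avg_apply]
  apply div_le_div_of_nonneg_right _ (by positivity)
  exact Finset.sum_le_sum (fun ω _ => h _)

lemma OrderPres.mul {T U : Module.End ℝ (Fn X)} (hT : OrderPres T) (hU : OrderPres U) :
    OrderPres (T * U) := fun f g h => hT _ _ (hU _ _ h)

lemma OrderPres.one : OrderPres (1 : Module.End ℝ (Fn X)) := fun _ _ h => h

lemma OrderPres.pow {T : Module.End ℝ (Fn X)} (hT : OrderPres T) (m : ℕ) :
    OrderPres (T ^ m) := by
  induction m with
  | zero => rw [pow_zero]; exact OrderPres.one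
  | succ m ih => rw [pow_succ]; exact ih.mul hT

lemma OrderPres.smul {T : Module.End ℝ (Fn X)} (hT : OrderPres T) {c : ℝ} (hc : 0 ≤ c) :
    OrderPres (c • T) := by
  intro f g h S
  have := hT f g h S
  simp only [LinearMap.smul_apply, Pi.smul_apply, smul_eq_mul]
  exact mul_le_mul_of_nonneg_left this hc

lemma OrderPres.add {T U : Module.End ℝ (Fn X)} (hT : OrderPres T) (hU : OrderPres U) :
    OrderPres (T + U) := by
  intro f g h S
  have h1 := hT f g h S
  have h2 := hU f g h S
  simp only [LinearMap.add_apply, Pi.add_apply]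
  linarith

/-- Preservation of monotonicity. -/
def MonoPres (T : Module.End ℝ (Fn X)) : Prop := ∀ g : Fn X, MonoFn g → MonoFn (T g)

lemma Avg_monoPres {Ω : Type} [Fintype Ω] (A : Ω → Finset X) : MonoPres (Avg A) := by
  intro g hg S T hST
  simp only [Avg_apply]
  apply div_le_div_of_nonneg_right _ (by positivity)
  exact Finset.sum_le_sum (fun ω _ => hg _ _ (Finset.inter_subset_inter_right hST))

lemma MonoPres.mul {T U : Module.End ℝ (Fn X)} (hT : MonoPres T) (hU : MonoPres U) :
    MonoPres (T * U) := fun g h => hT _ (hU _ h)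

lemma MonoPres.one : MonoPres (1 : Module.End ℝ (Fn X)) := fun _ h => h

lemma MonoPres.pow {T : Module.End ℝ (Fn X)} (hT : MonoPres T) (m : ℕ) :
    MonoPres (T ^ m) := by
  induction m with
  | zero => rw [pow_zero]; exact MonoPres.one
  | succ m ih => rw [pow_succ]; exact ih.mul hT

lemma MonoPres.smul {T : Module.End ℝ (Fn X)} (hT : MonoPres T) {c : ℝ} (hc : 0 ≤ c) :
    MonoPres (c • T) := by
  intro g hg S U hSU
  have := hT g hg S U hSU
  simp only [LinearMap.smul_apply, Pi.smul_apply, smul_eq_mul]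
  exact mul_le_mul_of_nonneg_left this hc

lemma MonoPres.add {T U : Module.End ℝ (Fn X)} (hT : MonoPres T) (hU : MonoPres U) :
    MonoPres (T + U) := by
  intro g hg S V hSV
  have h1 := hT g hg S V hSV
  have h2 := hU g hg S V hSV
  simp only [LinearMap.add_apply, Pi.add_apply]
  linarith

lemma Avg_le_self {Ω : Type} [Fintype Ω] [Nonempty Ω] (A : Ω → Finset X) {g : Fn X}
    (hg : MonoFn g) : Avg A g ≤ g := by
  intro S
  simp only [Avg_apply]
  have hc : (0 : ℝ) < Fintype.card Ω := by exact_mod_cast Fintype.card_pos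
  rw [div_le_iff₀ hc]
  calc ∑ ω, g (S ∩ A ω) ≤ ∑ _ω : Ω, g S :=
        Finset.sum_le_sum (fun ω _ => hg _ _ Finset.inter_subset_left)
    _ = g S * (Fintype.card Ω : ℝ) := by
        rw [Finset.sum_const, nsmul_eq_mul, Finset.card_univ, mul_comm]

/-- Bounds between `0` and `1`. -/
def UnitFn (g : Fn X) : Prop := ∀ S : Finset X, 0 ≤ g S ∧ g S ≤ 1

lemma Avg_unit {Ω : Type} [Fintype Ω] [Nonempty Ω] (A : Ω → Finset X) {g : Fn X}
    (hg : UnitFn g) : UnitFn (Avg A g) := by
  intro S
  simp only [Avg_apply]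
  have hc : (0 : ℝ) < Fintype.card Ω := by exact_mod_cast Fintype.card_pos
  constructor
  · exact div_nonneg (Finset.sum_nonneg (fun ω _ => (hg _).1)) hc.le
  · rw [div_le_one hc]
    calc ∑ ω, g (S ∩ A ω) ≤ ∑ _ω : Ω, (1 : ℝ) := Finset.sum_le_sum (fun ω _ => (hg _).2)
      _ = (Fintype.card Ω : ℝ) := by simp

lemma Avg_const {Ω : Type} [Fintype Ω] [Nonempty Ω] (A : Ω → Finset X) (c : ℝ) :
    Avg A (fun _ => c) = fun _ => c := by
  funext S
  simp only [Avg_apply]
  have hc : (Fintype.card Ω : ℝ) ≠ 0 := by exact_mod_cast Fintype.card_pos.ne'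
  rw [Finset.sum_const, nsmul_eq_mul, Finset.card_univ]
  field_simp

/-- The indicator of being nonempty. -/
def g0 : Fn X := fun S => if S.Nonempty then 1 else 0

lemma g0_mono : MonoFn (g0 : Fn X) := by
  intro S T hST
  unfold g0
  by_cases h : S.Nonempty
  · rw [if_pos h, if_pos (h.mono hST)]
  · rw [if_neg h]
    split_ifs <;> norm_num

lemma g0_unit : UnitFn (g0 : Fn X) := by
  intro S
  unfold g0
  split_ifs <;> norm_num

lemma g0_empty : (g0 : Fn X) ∅ = 0 := by
  simp [g0]

/-- Iterated averaging counts sequences. -/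
lemma Avg_pow_apply {Ω : Type} [Fintype Ω] [Nonempty Ω] (A : Ω → Finset X) (g : Fn X) (m : ℕ)
    (S : Finset X) [Fintype X] :
    ((Avg A) ^ m) g S =
      (∑ F : Fin m → Ω, g (S.filter (fun x => ∀ i, x ∈ A (F i)))) /
        (Fintype.card Ω : ℝ) ^ m := by
  have hc : (Fintype.card Ω : ℝ) ≠ 0 := by exact_mod_cast Fintype.card_pos.ne'
  induction m generalizing S with
  | zero =>
    simp only [pow_zero, Module.End.one_apply, div_one]
    rw [Fintype.sum_unique]
    congr 1
    ext x
    simp
  | succ m ih =>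
    rw [pow_succ']
    show Avg A (((Avg A) ^ m) g) S = _
    rw [Avg_apply]
    have h1 : ∀ ω, ((Avg A) ^ m) g (S ∩ A ω) =
        (∑ F : Fin m → Ω, g ((S ∩ A ω).filter (fun x => ∀ i, x ∈ A (F i)))) /
        (Fintype.card Ω : ℝ) ^ m := fun ω => ih (S ∩ A ω)
    simp only [h1]
    rw [← Finset.sum_div, div_div, ← pow_succ]
    congr 1
    rw [← (Fin.consEquiv (fun _ : Fin (m + 1) => Ω)).sum_comp, Fintype.sum_prod_type]
    refine Finset.sum_congr rfl (fun ω _ => Finset.sum_congr rfl (fun F _ => ?_))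
    congr 1
    ext x
    simp only [Finset.mem_filter, Finset.mem_inter, Fin.consEquiv_apply, Fin.forall_fin_succ,
      Fin.cons_zero, Fin.cons_succ]
    tauto

end ops

end Vale.Agent.Lib.P170
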